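import Mathlib

namespace Vale.Agent.P064
open Finset Real

lemma gibbs {ι : Type*} (s : Finset ι) (p w : ι → ℝ) (hp : ∀ i, 0 ≤ p i) (hw : ∀ i, 0 ≤ w i)
    (hpw : ∀ i, 0 < p i → 0 < w i) :
    ∑ i ∈ s, p i * (log (w i) - log (p i)) ≤ ∑ i ∈ s, w i - ∑ i ∈ s, p i := by
  rw [← Finset.sum_sub_distrib]
  refine Finset.sum_le_sum fun i _ => ?_
  rcases (hp i).eq_or_lt with h | h
  · rw [← h]; simpa using hw i
  · have hw' := hpw i h
    rw [← Real.log_div hw'.ne' h.ne']
    have := Real.log_le_sub_one_of_pos (div_pos hw' h)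
    calc p i * log (w i / p i) ≤ p i * (w i / p i - 1) := mul_le_mul_of_nonneg_left this h.le
      _ = w i - p i := by field_simp

/-- pushforward of a weight function -/
noncomputable def push {ι α : Type*} [Fintype ι] [DecidableEq α] (f : ι → α) (p : ι → ℝ)
    (y : α) : ℝ := ∑ i, if f i = y then p i else 0

section Push
variable {ι α : Type*} [Fintype ι] [DecidableEq α]

lemma push_sum [Fintype α] (f : ι → α) (p : ι → ℝ) (h : α → ℝ) :
    ∑ y, push f p y * h y = ∑ i, p i * h (f i) := by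
  unfold push
  simp_rw [Finset.sum_mul]
  rw [Finset.sum_comm]
  refine Finset.sum_congr rfl fun i _ => ?_
  simp [ite_mul]

lemma push_total [Fintype α] (f : ι → α) (p : ι → ℝ) : ∑ y, push f p y = ∑ i, p i := by
  simpa using push_sum f p (fun _ => 1)

lemma push_nonneg (f : ι → α) {p : ι → ℝ} (hp : ∀ i, 0 ≤ p i) (y : α) : 0 ≤ push f p y :=
  Finset.sum_nonneg fun i _ => by split_ifs; exacts [hp i, le_rfl]

lemma le_push (f : ι → α) {p : ι → ℝ} (hp : ∀ i, 0 ≤ p i) (i : ι) : p i ≤ push f p (f i) := by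
  have := Finset.single_le_sum (f := fun j => if f j = f i then p j else 0) (s := univ)
    (fun j _ => by split_ifs; exacts [hp j, le_rfl]) (mem_univ i)
  simpa [push] using this

lemma exists_of_push_pos (f : ι → α) {p : ι → ℝ} {y : α} (h : 0 < push f p y) :
    ∃ i, f i = y ∧ 0 < p i := by
  by_contra hc
  push Not at hc
  refine absurd h (not_lt.2 (Finset.sum_nonpos fun i _ => ?_))
  split_ifs with h1
  exacts [hc i h1, le_rfl]

/-- relative entropy -/
noncomputable def KL {α : Type*} [Fintype α] (p w : α → ℝ) : ℝ :=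
  ∑ y, p y * (log (p y) - log (w y))

lemma KL_push_le [Fintype α] (f : ι → α) {p w : ι → ℝ} (hp : ∀ i, 0 ≤ p i) (hw : ∀ i, 0 ≤ w i)
    (hpw : ∀ i, 0 < p i → 0 < w i) : KL (push f p) (push f w) ≤ KL p w := by
  have h1 := gibbs univ p (fun i => w i * (push f p (f i) / push f w (f i))) hp
    (fun i => mul_nonneg (hw i) (div_nonneg (push_nonneg f hp _) (push_nonneg f hw _)))
    (fun i hi => mul_pos (hpw i hi) (div_pos (hi.trans_le (le_push f hp i))
      ((hpw i hi).trans_le (le_push f hw i))))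
  have h2 : ∑ i, w i * (push f p (f i) / push f w (f i)) ≤ ∑ i, p i := by
    rw [← push_sum f w (fun y => push f p y / push f w y), ← push_total f p]
    refine Finset.sum_le_sum fun y _ => ?_
    rcases (push_nonneg f hw y).eq_or_lt with h | h
    · rw [← h]; simpa using push_nonneg f hp y
    · rw [mul_div_cancel₀ _ h.ne']
  have h3 : ∑ i, p i * (log (w i * (push f p (f i) / push f w (f i))) - log (p i))
      = KL (push f p) (push f w) - KL p w := by
    unfold KL
    rw [push_sum f p (fun y => log (push f p y) - log (push f w y)), ← Finset.sum_sub_distrib]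
    refine Finset.sum_congr rfl fun i _ => ?_
    rcases (hp i).eq_or_lt with h | h
    · rw [← h]; simp
    · have a1 := h.trans_le (le_push f hp i)
      have a2 := (hpw i h).trans_le (le_push f hw i)
      rw [Real.log_mul (hpw i h).ne' (div_pos a1 a2).ne', Real.log_div a1.ne' a2.ne']
      ring
  linarith

end Push

/-- average over the group -/
noncomputable def sym (Γ : Type*) {α : Type*} [Group Γ] [Fintype Γ] [MulAction Γ α]
    (p : α → ℝ) (y : α) : ℝ := (∑ g : Γ, p (g • y)) / Fintype.card Γ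

section Sym
variable {Γ α β : Type*} [Group Γ] [Fintype Γ] [MulAction Γ α] [MulAction Γ β]

lemma card_pos' : (0 : ℝ) < Fintype.card Γ := by exact_mod_cast Fintype.card_pos

lemma sym_smul (p : α → ℝ) (h : Γ) (y : α) : sym Γ p (h • y) = sym Γ p y := by
  unfold sym
  congr 1
  simp_rw [← mul_smul]
  exact Fintype.sum_equiv (Equiv.mulRight h) _ _ (fun g => rfl)

omit [Fintype Γ] in
lemma sum_smul [Fintype α] (g : Γ) (F : α → ℝ) : ∑ y, F (g • y) = ∑ y, F y :=
  Fintype.sum_equiv (MulAction.toPerm g) _ _ (fun _ => rfl)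

lemma sum_sym_mul [Fintype α] (p f : α → ℝ) (hf : ∀ (g : Γ) y, f (g • y) = f y) :
    ∑ y, sym Γ p y * f y = ∑ y, p y * f y := by
  unfold sym
  simp_rw [div_mul_eq_mul_div, Finset.sum_mul]
  rw [← Finset.sum_div, Finset.sum_comm]
  have : ∀ g : Γ, ∑ y, p (g • y) * f y = ∑ y, p y * f y := fun g => by
    rw [← sum_smul g (fun y => p y * f y)]
    simp_rw [hf]
  simp_rw [this]
  rw [Finset.sum_const, card_univ, nsmul_eq_mul]
  field_simp [card_pos'.ne']

lemma sum_sym [Fintype α] (p : α → ℝ) : ∑ y, sym Γ p y = ∑ y, p y := by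
  simpa using sum_sym_mul (Γ := Γ) p (fun _ => 1) (fun _ _ => rfl)

lemma sym_nonneg {p : α → ℝ} (hp : ∀ y, 0 ≤ p y) (y : α) : 0 ≤ sym Γ p y :=
  div_nonneg (Finset.sum_nonneg fun _ _ => hp _) card_pos'.le

lemma sym_pos {p : α → ℝ} (hp : ∀ y, 0 ≤ p y) {y : α} (h : 0 < p y) : 0 < sym Γ p y := by
  refine div_pos ?_ card_pos'
  have := Finset.single_le_sum (f := fun g : Γ => p (g • y)) (s := univ)
    (fun g _ => hp _) (mem_univ 1)
  simp only [one_smul] at this
  linarith

lemma exists_of_sym_pos {p : α → ℝ} {y : α} (h : 0 < sym Γ p y) : ∃ g : Γ, 0 < p (g • y) := by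
  by_contra hc
  push Not at hc
  exact absurd h (not_lt.2 (div_nonpos_of_nonpos_of_nonneg
    (Finset.sum_nonpos fun g _ => hc g) card_pos'.le))

omit [Fintype Γ] in
lemma push_smul [Fintype α] [DecidableEq β] (f : α → β) (hf : ∀ (g : Γ) x, f (g • x) = g • f x)
    (p : α → ℝ) (g : Γ) (y : β) : push f p (g • y) = push f (fun x => p (g • x)) y := by
  unfold push
  rw [← sum_smul g (fun x => if f x = g • y then p x else 0)]
  simp_rw [hf, smul_left_cancel_iff]

omit [Fintype Γ] in
lemma push_inv [Fintype α] [DecidableEq β] (f : α → β) (hf : ∀ (g : Γ) x, f (g • x) = g • f x)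
    {p : α → ℝ} (hp : ∀ (g : Γ) x, p (g • x) = p x) (g : Γ) (y : β) :
    push f p (g • y) = push f p y := by
  rw [push_smul f hf]; simp_rw [hp]

lemma sym_push [Fintype α] [DecidableEq β] (f : α → β) (hf : ∀ (g : Γ) x, f (g • x) = g • f x)
    (p : α → ℝ) (y : β) : sym Γ (push f p) y = push f (sym Γ p) y := by
  unfold sym
  simp_rw [push_smul f hf]
  unfold push
  rw [Finset.sum_comm, Finset.sum_div]
  refine Finset.sum_congr rfl fun x _ => ?_
  split_ifs <;> simp

lemma KL_sym_le [Fintype α] {p w : α → ℝ} (hp : ∀ y, 0 ≤ p y) (hw : ∀ y, 0 ≤ w y)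
    (hpw : ∀ y, 0 < p y → 0 < w y) (hs : ∑ y, w y ≤ ∑ y, p y)
    (hi : ∀ (g : Γ) y, w (g • y) = w y) : KL p (sym Γ p) ≤ KL p w := by
  have h1 := gibbs univ (sym Γ p) w (sym_nonneg hp) hw (fun y hy => by
    obtain ⟨g, hg⟩ := exists_of_sym_pos hy
    have := hpw _ hg
    rwa [hi] at this)
  rw [sum_sym_mul p (fun y => log (w y) - log (sym Γ p y)) (fun g y => by
    simp only [hi, sym_smul]), sum_sym] at h1
  have h2 : ∑ y, p y * (log (w y) - log (sym Γ p y)) = KL p (sym Γ p) - KL p w := by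
    unfold KL
    rw [← Finset.sum_sub_distrib]
    exact Finset.sum_congr rfl fun y _ => by ring
  linarith

end Sym

end Vale.Agent.P064
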