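import Vale.Agent.P064.Seq

namespace Vale.Agent.P064
open Finset Real
open scoped Pointwise

variable {Γ X : Type*} [Group Γ] [Fintype Γ] [Fintype X] [DecidableEq X] [MulAction Γ X]

def IsLaw (H : Finset X) (ν : Finset X → ℝ) : Prop :=
  (∀ S, 0 ≤ ν S) ∧ ∑ S, ν S = 1 ∧ ∀ S, 0 < ν S → S ⊆ H

/-- probability that a random translate of `S` lies in `H` -/
noncomputable def piH (Γ : Type*) [Group Γ] [Fintype Γ] [MulAction Γ X] (H S : Finset X) : ℝ :=
  sym Γ (fun T => if T ⊆ H then 1 else 0) S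

noncomputable def Phi (Γ : Type*) [Group Γ] [Fintype Γ] [MulAction Γ X] (b : ℝ)
    (ν : Finset X → ℝ) : ℝ := b * sz ν - KL ν (sym Γ ν) + AA ν

lemma KL_ge {H : Finset X} {μ R : Finset X → ℝ} (hμ : IsLaw H μ) (R0 : ∀ S, 0 ≤ R S)
    (R1 : ∑ S, R S ≤ 1) (Ri : ∀ (g : Γ) S, R (g • S) = R S) (hp : ∀ S, 0 < μ S → 0 < R S)
    {b : ℝ} (hb : ∀ S, piH Γ H S * exp (b * S.card) ≤ 1) : b * sz μ ≤ KL μ R := by
  have g1 := gibbs univ μ (fun T => (if T ⊆ H then 1 else 0) * (R T * exp (b * T.card))) hμ.1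
    (fun T => mul_nonneg (by split_ifs <;> norm_num) (mul_nonneg (R0 T) (exp_pos _).le))
    (fun T hT => by
      rw [if_pos (hμ.2.2 T hT), one_mul]; exact mul_pos (hp T hT) (exp_pos _))
  have g2 : ∑ T, (if T ⊆ H then 1 else 0) * (R T * exp (b * T.card)) ≤ 1 := by
    rw [← sum_sym_mul (Γ := Γ) _ _ (fun g T => by rw [Ri, card_smul_finset])]
    refine le_trans (Finset.sum_le_sum fun T _ => ?_) R1
    have := mul_le_mul_of_nonneg_left (hb T) (R0 T)
    unfold piH at this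
    linarith
  have g3 : ∑ T, μ T * (log ((if T ⊆ H then 1 else 0) * (R T * exp (b * T.card))) - log (μ T))
      = b * sz μ - KL μ R := by
    unfold sz KL
    rw [Finset.mul_sum, ← Finset.sum_sub_distrib]
    refine Finset.sum_congr rfl fun T _ => ?_
    rcases (hμ.1 T).eq_or_lt with h | h
    · rw [← h]; simp
    · rw [if_pos (hμ.2.2 T h), one_mul, Real.log_mul (hp T h).ne' (exp_pos _).ne', log_exp]
      ring
  rw [hμ.2.1] at g1
  linarith

/-- the orbit of a set -/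
noncomputable def orb (Γ : Type*) [Group Γ] [Fintype Γ] [MulAction Γ X] (T : Finset X) :
    Finset (Finset X) := univ.image fun g : Γ => g • T

lemma mul_orb_le {R : Finset X → ℝ} (R0 : ∀ S, 0 ≤ R S)
    (R1 : ∑ S, R S ≤ 1) (Ri : ∀ (g : Γ) S, R (g • S) = R S) (T : Finset X) :
    R T * (orb Γ T).card ≤ 1 := by
  refine le_trans (le_of_eq ?_)
    ((Finset.sum_le_sum_of_subset_of_nonneg (subset_univ (orb Γ T)) fun S _ _ => R0 S).trans R1)
  rw [Finset.sum_congr rfl (g := fun _ => R T) fun S hS => by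
    obtain ⟨g, -, rfl⟩ := mem_image.1 hS
    exact Ri g T]
  simp [mul_comm]

lemma phi_nonneg {t : ℝ} (h : 0 ≤ t) : 0 ≤ phi t := mul_nonneg h (Real.sqrt_nonneg _)

lemma phi_le_one {t : ℝ} (h1 : t ≤ 1) : phi t ≤ 1 :=
  mul_le_one₀ h1 (Real.sqrt_nonneg _) (Real.sqrt_le_one.2 h1)

lemma phi_double {t : ℝ} (h : 0 ≤ t) (h1 : t ≤ 1) :
    2.8 * phi t - 2.4 * t ^ 2 ≤ phi (2 * t - t ^ 2) := by
  obtain ⟨s, hs⟩ : ∃ s, s = √t := ⟨_, rfl⟩
  have hs0 : 0 ≤ s := hs ▸ Real.sqrt_nonneg _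
  have hs1 : s ≤ 1 := hs ▸ Real.sqrt_le_one.2 h1
  have hs2 : s ^ 2 = t := hs ▸ Real.sq_sqrt h
  have e1 : s * (1.4 - t / 2) ≤ √(2 * t - t ^ 2) := by
    refine Real.le_sqrt_of_sq_le ?_
    rw [mul_pow, hs2]
    have : (1.4 - t / 2) ^ 2 ≤ 2 - t := by nlinarith
    nlinarith
  have e2 : 0 ≤ 2 * t - t ^ 2 := by nlinarith
  have e3 := mul_le_mul_of_nonneg_left e1 e2
  unfold phi
  rw [← hs]
  refine le_trans ?_ e3
  have e4 : t ^ 2 * s ≤ t ^ 2 := mul_le_of_le_one_right (sq_nonneg t) hs1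
  have e5 : 0 ≤ t ^ 3 * s := by positivity
  nlinarith

lemma pos_and_pos {a b : ℝ} (h : 0 < a * b) (ha : 0 ≤ a) (hb : 0 ≤ b) : 0 < a ∧ 0 < b :=
  ⟨ha.lt_of_ne fun e => by simp [← e] at h, hb.lt_of_ne fun e => by simp [← e] at h⟩

noncomputable def nu2 (ν : Finset X → ℝ) (z : Finset X × Finset X) : ℝ := ν z.1 * ν z.2

def capm (z : Finset X × Finset X) : Finset X × Finset X := (z.1, z.1 ∩ z.2)

def cupm (z : Finset X × Finset X) : Finset X := z.1 ∪ z.2

noncomputable def WW (Γ : Type*) [Group Γ] [Fintype Γ] [MulAction Γ X] (ν : Finset X → ℝ) :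
    Finset X × Finset X → ℝ := sym Γ (push capm (nu2 ν))

noncomputable def RR (Γ : Type*) [Group Γ] [Fintype Γ] [MulAction Γ X] (ν : Finset X → ℝ) :
    Finset X → ℝ := push Prod.snd (WW Γ ν)

noncomputable def rs (Γ : Type*) [Group Γ] [Fintype Γ] [MulAction Γ X] (ν : Finset X → ℝ)
    (z : Finset X × Finset X) : ℝ := ν z.1 * (WW Γ ν z / sym Γ ν z.1)

noncomputable def EE (Γ : Type*) [Group Γ] [Fintype Γ] [MulAction Γ X] (ν : Finset X → ℝ) : ℝ :=
  ∑ z, nu2 ν z * (log (sym Γ ν z.1) - log (WW Γ ν (capm z)))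

noncomputable def HR (Γ : Type*) [Group Γ] [Fintype Γ] [MulAction Γ X] (ν : Finset X → ℝ) : ℝ :=
  ∑ z, nu2 ν z * (-log (RR Γ ν (z.1 ∩ z.2)))

section
variable {H : Finset X} {ν : Finset X → ℝ}

omit [Fintype X] [DecidableEq X] in
lemma nu2_nonneg (h : ∀ S, 0 ≤ ν S) (z : Finset X × Finset X) : 0 ≤ nu2 ν z :=
  mul_nonneg (h _) (h _)

omit [Fintype X] [DecidableEq X] in
lemma nu2_pos (h : ∀ S, 0 ≤ ν S) {z : Finset X × Finset X} (hz : 0 < nu2 ν z) :
    0 < ν z.1 ∧ 0 < ν z.2 := by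
  unfold nu2 at hz
  exact pos_and_pos hz (h _) (h _)

omit [DecidableEq X] in
lemma sum_nu2_fst (h : IsLaw H ν) (f : Finset X → ℝ) :
    ∑ z, nu2 ν z * f z.1 = ∑ A, ν A * f A := by
  rw [Fintype.sum_prod_type]
  refine Finset.sum_congr rfl fun A _ => ?_
  have : ∀ B, nu2 ν (A, B) * f A = ν B * (ν A * f A) := fun B => by unfold nu2; ring
  simp_rw [this]
  rw [← Finset.sum_mul, h.2.1, one_mul]

omit [DecidableEq X] in
lemma sum_nu2_swap (f : Finset X × Finset X → ℝ) :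
    ∑ z, nu2 ν z * f z = ∑ z, nu2 ν z * f z.swap :=
  Fintype.sum_equiv (Equiv.prodComm _ _) _ _ fun z => by simp [nu2, mul_comm]

omit [DecidableEq X] in
lemma sum_nu2 (h : IsLaw H ν) : ∑ z, nu2 ν z = 1 := by
  simpa [h.2.1] using sum_nu2_fst h (fun _ => 1)

lemma WW_nonneg (h : IsLaw H ν) (z) : 0 ≤ WW Γ ν z :=
  sym_nonneg (push_nonneg _ (nu2_nonneg h.1)) z

lemma WW_pos (h : IsLaw H ν) {z} (hz : 0 < nu2 ν z) : 0 < WW Γ ν (capm z) :=
  sym_pos (push_nonneg _ (nu2_nonneg h.1)) (hz.trans_le (le_push capm (nu2_nonneg h.1) z))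

lemma WW_inv (g : Γ) (z) : WW Γ ν (g • z) = WW Γ ν z := sym_smul _ g z

lemma WW_supp {z} (hz : 0 < WW Γ ν z) : z.2 ⊆ z.1 := by
  obtain ⟨g, hg⟩ := exists_of_sym_pos hz
  obtain ⟨w, hw, -⟩ := exists_of_push_pos _ hg
  have h1 : w.1 = g • z.1 := congrArg Prod.fst hw
  have h2 : w.1 ∩ w.2 = g • z.2 := congrArg Prod.snd hw
  have : g • z.2 ⊆ g • z.1 := by rw [← h1, ← h2]; exact inter_subset_left
  exact smul_finset_subset_smul_finset_iff.1 this

lemma sum_WW (h : IsLaw H ν) (A : Finset X) : ∑ T, WW Γ ν (A, T) = sym Γ ν A := by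
  rw [← push_fst, WW, ← sym_push Prod.fst (fun _ _ => rfl)]
  congr 1
  funext B
  have := push_sum capm (nu2 ν) (fun z => if z.1 = B then 1 else 0)
  have h2 := sum_nu2_fst h (fun A => if A = B then 1 else 0)
  replace this := this.trans h2
  simpa [push] using this

lemma RR_nonneg (h : IsLaw H ν) (T) : 0 ≤ RR Γ ν T := push_nonneg _ (WW_nonneg h) T

lemma RR_total (h : IsLaw H ν) : ∑ T, RR Γ ν T = 1 := by
  rw [RR, push_total, WW, sum_sym, push_total, sum_nu2 h]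

lemma RR_inv (g : Γ) (T) : RR Γ ν (g • T) = RR Γ ν T :=
  push_inv Prod.snd (fun _ _ => rfl) WW_inv g T

lemma RR_pos (h : IsLaw H ν) {z} (hz : 0 < WW Γ ν z) : 0 < RR Γ ν z.2 :=
  hz.trans_le (le_push Prod.snd (WW_nonneg h) z)

lemma rs_nonneg (h : IsLaw H ν) (z) : 0 ≤ rs Γ ν z :=
  mul_nonneg (h.1 _) (div_nonneg (WW_nonneg h z) (sym_nonneg h.1 _))

lemma rs_pos (h : IsLaw H ν) {z} (hz : 0 < rs Γ ν z) : 0 < ν z.1 ∧ 0 < WW Γ ν z := by
  unfold rs at hz
  obtain ⟨h1, h2⟩ := pos_and_pos hz (h.1 _) (div_nonneg (WW_nonneg h z) (sym_nonneg h.1 _))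
  exact ⟨h1, (div_pos_iff_of_pos_right (sym_pos h.1 h1)).1 h2⟩

lemma transfer (h : IsLaw H ν) (f : Finset X × Finset X → ℝ)
    (hf : ∀ (g : Γ) z, f (g • z) = f z) :
    ∑ z, rs Γ ν z * f z = ∑ z, nu2 ν z * f (capm z) := by
  rw [← push_sum capm (nu2 ν) f, ← sum_sym_mul (Γ := Γ) (push capm (nu2 ν)) f hf,
    Fintype.sum_prod_type,
    Fintype.sum_prod_type]
  have e1 : ∀ A, ∑ T, rs Γ ν (A, T) * f (A, T) =
      ν A * ∑ T, WW Γ ν (A, T) / sym Γ ν A * f (A, T) := fun A => by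
    rw [Finset.mul_sum]
    exact Finset.sum_congr rfl fun T _ => by unfold rs; ring
  rw [Finset.sum_congr rfl fun A _ => e1 A]
  rw [← sum_sym_mul (Γ := Γ) ν _ fun g A => by
    rw [← sum_smul g (fun T => WW Γ ν (g • A, T) / sym Γ ν (g • A) * f (g • A, T))]
    refine Finset.sum_congr rfl fun T _ => ?_
    rw [sym_smul, ← Prod.smul_mk, WW_inv, hf]]
  refine Finset.sum_congr rfl fun A _ => ?_
  rw [Finset.mul_sum]
  refine Finset.sum_congr rfl fun T _ => ?_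
  change _ = WW Γ ν (A, T) * _
  rcases (sym_nonneg (Γ := Γ) h.1 A).eq_or_lt with h0 | h0
  · have : WW Γ ν (A, T) ≤ sym Γ ν A := by
      rw [← sum_WW h]
      exact Finset.single_le_sum (f := fun T => WW Γ ν (A, T)) (fun T _ => WW_nonneg h _)
        (mem_univ T)
    rw [← h0] at this ⊢
    rw [le_antisymm this (WW_nonneg h _)]; simp
  · field_simp

lemma rs_fst (h : IsLaw H ν) : push Prod.fst (rs Γ ν) = ν := by
  funext A
  rw [push_fst]
  unfold rs
  dsimp only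
  rw [← Finset.mul_sum, ← Finset.sum_div, sum_WW h]
  rcases (h.1 A).eq_or_lt with h0 | h0
  · rw [← h0]; simp
  · rw [div_self (sym_pos h.1 h0).ne', mul_one]

lemma rs_total (h : IsLaw H ν) : ∑ z, rs Γ ν z = 1 := by
  rw [← push_total Prod.fst, rs_fst h, h.2.1]

lemma mu_law (h : IsLaw H ν) : IsLaw H (push Prod.snd (rs Γ ν)) := by
  refine ⟨push_nonneg _ (rs_nonneg h), by rw [push_total, rs_total h], fun T hT => ?_⟩
  obtain ⟨z, rfl, hz⟩ := exists_of_push_pos _ hT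
  exact (WW_supp (rs_pos h hz).2).trans (h.2.2 _ (rs_pos h hz).1)

omit [DecidableEq X] in
lemma sum_nu2_prod (f g : Finset X → ℝ) :
    ∑ z, nu2 ν z * (f z.1 * g z.2) = (∑ A, ν A * f A) * ∑ B, ν B * g B := by
  rw [Fintype.sum_prod_type, Finset.sum_mul_sum]
  exact Finset.sum_congr rfl fun A _ => Finset.sum_congr rfl fun B _ => by unfold nu2; ring

lemma sz_mu (h : IsLaw H ν) : sz (push Prod.snd (rs Γ ν)) = ∑ x, th ν x ^ 2 := by
  unfold sz
  rw [push_sum, transfer h (fun z => (z.2.card : ℝ)) fun g z => by simp [card_smul_finset]]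
  simp_rw [card_eq_sum_ind, Finset.mul_sum]
  rw [Finset.sum_comm]
  refine Finset.sum_congr rfl fun x _ => ?_
  rw [sq, th, ← sum_nu2_prod]
  refine Finset.sum_congr rfl fun z _ => ?_
  by_cases h1 : x ∈ z.1 <;> by_cases h2 : x ∈ z.2 <;> simp [capm, h1, h2]

lemma th_cup (h : IsLaw H ν) (x : X) : th (push cupm (nu2 ν)) x = 2 * th ν x - th ν x ^ 2 := by
  have e1 := sum_nu2_prod (ν := ν) (fun A => if x ∈ A then 1 else 0) (fun _ => 1)
  have e2 := sum_nu2_prod (ν := ν) (fun _ => 1) (fun A => if x ∈ A then 1 else 0)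
  have e3 := sum_nu2_prod (ν := ν) (fun A => if x ∈ A then 1 else 0)
    (fun A => if x ∈ A then 1 else 0)
  simp only [mul_one, one_mul, h.2.1] at e1 e2
  unfold th
  rw [push_sum, two_mul, sq, ← e3]
  nth_rewrite 1 [← e1]
  rw [← e2, ← Finset.sum_add_distrib, ← Finset.sum_sub_distrib]
  refine Finset.sum_congr rfl fun z _ => ?_
  by_cases h1 : x ∈ z.1 <;> by_cases h2 : x ∈ z.2 <;> simp [cupm, h1, h2]

lemma cup_law (h : IsLaw H ν) : IsLaw H (push cupm (nu2 ν)) := by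
  refine ⟨push_nonneg _ (nu2_nonneg h.1), by rw [push_total, sum_nu2 h], fun T hT => ?_⟩
  obtain ⟨z, rfl, hz⟩ := exists_of_push_pos _ hT
  exact union_subset (h.2.2 _ (nu2_pos h.1 hz).1) (h.2.2 _ (nu2_pos h.1 hz).2)

lemma KL_double (h : IsLaw H ν) :
    KL (push cupm (nu2 ν)) (sym Γ (push cupm (nu2 ν))) ≤
      2 * KL ν (sym Γ ν) + 2 * EE Γ ν - HR Γ ν := by
  obtain ⟨Q, hQ⟩ : ∃ Q : Finset X × Finset X → ℝ, Q = fun z =>
    WW Γ ν (capm z) * WW Γ ν (capm z.swap) / RR Γ ν (z.1 ∩ z.2) := ⟨_, rfl⟩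
  have Q0 : ∀ z, 0 ≤ Q z := fun z => by
    rw [hQ]; exact div_nonneg (mul_nonneg (WW_nonneg h _) (WW_nonneg h _)) (RR_nonneg h _)
  have sw : ∀ z, 0 < nu2 ν z → 0 < nu2 ν z.swap := fun z hz => by
    unfold nu2 at hz ⊢; rwa [mul_comm]
  have Qp : ∀ z, 0 < nu2 ν z → 0 < Q z := fun z hz => by
    rw [hQ]
    exact div_pos (mul_pos (WW_pos h hz) (WW_pos h (sw z hz))) (RR_pos h (WW_pos h hz))
  have Qi : ∀ (g : Γ) z, Q (g • z) = Q z := fun g z => by
    have c1 : ∀ w : Finset X × Finset X, capm (g • w) = g • capm w := fun w => by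
      simp [capm, smul_finset_inter]
    rw [hQ]; dsimp only
    rw [c1, WW_inv, show (g • z).swap = g • z.swap from rfl, c1, WW_inv, Prod.smul_fst, Prod.smul_snd,
      ← smul_finset_inter, RR_inv]
  have Q1 : ∑ z, Q z ≤ 1 := by
    have e1 : ∀ z, Q z ≤ ∑ T, WW Γ ν (z.1, T) * WW Γ ν (z.2, T) / RR Γ ν T := fun z => by
      have := Finset.single_le_sum
        (f := fun T => WW Γ ν (z.1, T) * WW Γ ν (z.2, T) / RR Γ ν T)
        (fun T _ => div_nonneg (mul_nonneg (WW_nonneg h _) (WW_nonneg h _)) (RR_nonneg h _))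
        (mem_univ (z.1 ∩ z.2))
      rw [hQ]
      simpa [capm, inter_comm] using this
    refine (Finset.sum_le_sum fun z _ => e1 z).trans ?_
    rw [Finset.sum_comm, ← RR_total (Γ := Γ) h]
    refine Finset.sum_le_sum fun T _ => ?_
    rw [← Finset.sum_div, Fintype.sum_prod_type]
    dsimp only
    rw [← Finset.sum_mul_sum, ← push_snd]
    change RR Γ ν T * RR Γ ν T / RR Γ ν T ≤ _
    rw [mul_self_div_self]
  have k1 := KL_sym_le (Γ := Γ) (p := push cupm (nu2 ν)) (w := push cupm Q)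
    (push_nonneg _ (nu2_nonneg h.1)) (push_nonneg _ Q0)
    (fun T hT => by
      obtain ⟨z, rfl, hz⟩ := exists_of_push_pos _ hT
      exact (Qp z hz).trans_le (le_push _ Q0 z))
    (by rw [push_total, push_total, sum_nu2 h]; exact Q1)
    (push_inv cupm (fun g z => by simp [cupm, smul_finset_union]) Qi)
  have k2 := KL_push_le cupm (nu2_nonneg h.1) Q0 Qp
  have k3 : ∑ z, nu2 ν z * (log (ν z.1) - log (WW Γ ν (capm z))) = KL ν (sym Γ ν) + EE Γ ν := by
    unfold KL EE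
    rw [← sum_nu2_fst h, ← Finset.sum_add_distrib]
    exact Finset.sum_congr rfl fun z _ => by ring
  have k4 := sum_nu2_swap (ν := ν) (fun z => log (ν z.1) - log (WW Γ ν (capm z)))
  have k5 : KL (nu2 ν) Q = ∑ z, nu2 ν z * (log (ν z.1) - log (WW Γ ν (capm z))) +
      ∑ z, nu2 ν z * (log (ν z.swap.1) - log (WW Γ ν (capm z.swap))) - HR Γ ν := by
    unfold KL HR
    rw [← Finset.sum_add_distrib, ← Finset.sum_sub_distrib]
    refine Finset.sum_congr rfl fun z _ => ?_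
    rcases (nu2_nonneg h.1 z).eq_or_lt with h0 | h0
    · rw [← h0]; simp
    · have a1 := WW_pos (Γ := Γ) h h0
      have a2 := WW_pos (Γ := Γ) h (sw z h0)
      have a3 : 0 < RR Γ ν (z.1 ∩ z.2) := RR_pos h a1
      have a4 : log (nu2 ν z) = log (ν z.1) + log (ν z.swap.1) :=
        Real.log_mul (nu2_pos h.1 h0).1.ne' (nu2_pos h.1 h0).2.ne'
      rw [hQ, a4]; dsimp only
      rw [Real.log_div (mul_pos a1 a2).ne' a3.ne', Real.log_mul a1.ne' a2.ne']
      ring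
  linarith

lemma EE_eq (h : IsLaw H ν) :
    ∑ z, rs Γ ν z * (log (ν z.1) - log (rs Γ ν z)) = EE Γ ν := by
  unfold EE
  have := transfer h (fun z => log (sym Γ ν z.1) - log (WW Γ ν z)) fun g z => by
    rw [WW_inv, Prod.smul_fst, sym_smul]
  simp only [show ∀ z : Finset X × Finset X, (capm z).1 = z.1 from fun _ => rfl] at this
  rw [← this]
  refine Finset.sum_congr rfl fun z _ => ?_
  rcases (rs_nonneg (Γ := Γ) h z).eq_or_lt with h0 | h0
  · rw [← h0]; simp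
  · obtain ⟨a1, a2⟩ := rs_pos h h0
    have a3 := sym_pos (Γ := Γ) h.1 a1
    have : log (rs Γ ν z) = log (ν z.1) + (log (WW Γ ν z) - log (sym Γ ν z.1)) := by
      unfold rs
      rw [Real.log_mul a1.ne' (div_pos a2 a3).ne', Real.log_div a2.ne' a3.ne']
    rw [this]; ring

lemma HR_eq (h : IsLaw H ν) :
    HR Γ ν = ∑ T, push Prod.snd (rs Γ ν) T * (-log (RR Γ ν T)) := by
  rw [push_sum, transfer h (fun z => -log (RR Γ ν z.2)) fun g z => by rw [Prod.smul_snd, RR_inv]]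
  rfl

lemma RR_pos' (h : IsLaw H ν) (T) (hT : 0 < push Prod.snd (rs Γ ν) T) : 0 < RR Γ ν T := by
  obtain ⟨z, rfl, hz⟩ := exists_of_push_pos _ hT
  exact RR_pos h (rs_pos h hz).2

lemma cond_var (h : IsLaw H ν) {b M : ℝ} (hM : ∀ ν', IsLaw H ν' → Phi Γ b ν' ≤ M) :
    ∑ T, push Prod.snd (rs Γ ν) T * AA (cond (rs Γ ν) T) ≤
      M - Phi Γ b ν + AA ν - EE Γ ν + Ent (push Prod.snd (rs Γ ν)) := by
  obtain ⟨σ, hσ⟩ : ∃ σ, σ = rs Γ ν := ⟨_, rfl⟩
  have σ0 : ∀ z, 0 ≤ σ z := hσ ▸ rs_nonneg h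
  have hE := EE_eq (Γ := Γ) h
  have hf := rs_fst (Γ := Γ) h
  have hl := mu_law (Γ := Γ) h
  have hp : ∀ z, 0 < σ z → 0 < ν z.1 := fun z hz => (rs_pos h (hσ ▸ hz)).1
  rw [← hσ] at hE hf hl ⊢
  have e1 : ∀ T, push Prod.snd σ T * AA (cond σ T) ≤ push Prod.snd σ T * M -
      b * ∑ A, σ (A, T) * (A.card : ℝ) +
      ∑ A, σ (A, T) * (log (σ (A, T)) - log (push Prod.snd σ T) - log (sym Γ ν A)) := fun T => by
    rcases (push_nonneg Prod.snd σ0 T).eq_or_lt with h0 | h0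
    · have : ∀ A, σ (A, T) = 0 := fun A => by rw [← mul_cond σ0, ← h0, zero_mul]
      simp [← h0, this]
    have cp : ∀ A, 0 < cond σ T A → 0 < σ (A, T) := fun A hA => by
      rw [← mul_cond σ0]; exact mul_pos h0 hA
    have c1 : ∑ A, cond σ T A = 1 := by
      unfold cond
      rw [← Finset.sum_div, ← push_snd, div_self h0.ne']
    have l1 : IsLaw H (cond σ T) :=
      ⟨cond_nonneg σ0 T, c1, fun A hA => h.2.2 _ (hp _ (cp A hA))⟩
    have l2 := hM _ l1
    have l3 := KL_sym_le (Γ := Γ) (cond_nonneg σ0 T) (sym_nonneg (Γ := Γ) h.1)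
      (fun A hA => sym_pos h.1 (hp _ (cp A hA))) (by rw [sum_sym, c1, h.2.1]) (sym_smul ν)
    have l4 : ∑ A, σ (A, T) * (A.card : ℝ) = push Prod.snd σ T * sz (cond σ T) := by
      unfold sz
      rw [Finset.mul_sum]
      exact Finset.sum_congr rfl fun A _ => by rw [← mul_cond σ0]; ring
    have l5 : ∑ A, σ (A, T) * (log (σ (A, T)) - log (push Prod.snd σ T) - log (sym Γ ν A)) =
        push Prod.snd σ T * KL (cond σ T) (sym Γ ν) := by
      unfold KL
      rw [Finset.mul_sum]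
      refine Finset.sum_congr rfl fun A _ => ?_
      rw [← mul_assoc, mul_cond σ0]
      rcases (σ0 (A, T)).eq_or_lt with h1 | h1
      · rw [← h1]; simp
      · unfold cond
        rw [Real.log_div h1.ne' h0.ne']
    rw [l4, l5]
    unfold Phi at l2
    have := mul_le_mul_of_nonneg_left
      (show AA (cond σ T) ≤ M - b * sz (cond σ T) + KL (cond σ T) (sym Γ ν) by linarith) h0.le
    linarith
  have e2 := Finset.sum_le_sum fun T (_ : T ∈ univ) => e1 T
  rw [Finset.sum_add_distrib, Finset.sum_sub_distrib, ← Finset.sum_mul, ← Finset.mul_sum,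
    hl.2.1, one_mul, ← Fintype.sum_prod_type_right (fun z => σ z * (z.1.card : ℝ)),
    ← Fintype.sum_prod_type_right (fun z => σ z *
      (log (σ z) - log (push Prod.snd σ z.2) - log (sym Γ ν z.1)))] at e2
  have e3 : ∑ z, σ z * (z.1.card : ℝ) = sz ν := by
    unfold sz
    rw [← push_sum Prod.fst σ (fun T => (T.card : ℝ)), hf]
  have e4 : ∑ z, σ z * -log (push Prod.snd σ z.2) = Ent (push Prod.snd σ) := by
    unfold Ent
    rw [← push_sum Prod.snd σ (fun T => -log (push Prod.snd σ T))]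
  have e5 : ∑ z, σ z * (log (ν z.1) - log (sym Γ ν z.1)) = KL ν (sym Γ ν) := by
    unfold KL
    rw [← push_sum Prod.fst σ (fun T => log (ν T) - log (sym Γ ν T)), hf]
  have e6 : ∑ z, σ z * (log (σ z) - log (push Prod.snd σ z.2) - log (sym Γ ν z.1)) =
      ∑ z, σ z * (log (ν z.1) - log (sym Γ ν z.1)) - ∑ z, σ z * (log (ν z.1) - log (σ z)) +
      ∑ z, σ z * -log (push Prod.snd σ z.2) := by
    rw [← Finset.sum_sub_distrib, ← Finset.sum_add_distrib]
    exact Finset.sum_congr rfl fun z _ => by ring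
  unfold Phi
  rw [e3] at e2
  linarith

lemma Phi_le (h : IsLaw H ν) {b : ℝ} (hb : ∀ S, piH Γ H S * exp (b * S.card) ≤ 1) :
    Phi Γ (b + 1) ν ≤ 2 * Fintype.card X := by
  have k := KL_ge (Γ := Γ) h (sym_nonneg (Γ := Γ) h.1) (by rw [sum_sym, h.2.1]) (sym_smul ν)
    (fun S hS => sym_pos h.1 hS) hb
  have t1 : ∀ x, th ν x ≤ 1 := fun x => h.2.1 ▸ th_le h.1 x
  have a1 : AA ν ≤ Fintype.card X := by
    have := Finset.sum_le_sum fun x (_ : x ∈ univ) => phi_le_one (t1 x)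
    simpa [AA] using this
  have a2 : sz ν ≤ Fintype.card X := by
    have := Finset.sum_le_sum fun x (_ : x ∈ univ) => t1 x
    simpa [sz_eq] using this
  unfold Phi
  linarith

lemma extremal (h : IsLaw H ν) {a b M : ℝ} (hb : ∀ S, piH Γ H S * exp (b * S.card) ≤ 1)
    (ha : ∀ J ⊆ H, exp (a * J.card) ≤ 2 * (orb Γ J).card) (hab : b + 40 ≤ a)
    (hM : ∀ ν', IsLaw H ν' → Phi Γ (b + 1) ν' ≤ M) (hν : M - 1 / 10 ≤ Phi Γ (b + 1) ν) :
    M < 1 := by
  have hl := mu_law (Γ := Γ) h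
  have c1 := cond_var h hM
  have c2 := seq_bound (rs_nonneg (Γ := Γ) h) (rs_total h) (fun z hz => WW_supp (rs_pos h hz).2)
  rw [rs_fst h, EE_eq h] at c2
  have c3 := hM _ (cup_law h)
  have c4 := KL_double (Γ := Γ) h
  have c5 := KL_ge hl (RR_nonneg h) (RR_total h).le RR_inv (RR_pos' h) hb
  have c6 : KL (push Prod.snd (rs Γ ν)) (RR Γ ν) = HR Γ ν - Ent (push Prod.snd (rs Γ ν)) := by
    rw [HR_eq h]
    unfold KL Ent
    rw [← Finset.sum_sub_distrib]
    exact Finset.sum_congr rfl fun T _ => by ring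
  have c7 : a * sz (push Prod.snd (rs Γ ν)) - log 2 ≤ HR Γ ν := by
    rw [HR_eq h, ← one_mul (log 2), ← hl.2.1]
    unfold sz
    rw [Finset.mul_sum, Finset.sum_mul, ← Finset.sum_sub_distrib]
    refine Finset.sum_le_sum fun T _ => ?_
    rcases (hl.1 T).eq_or_lt with h0 | h0
    · rw [← h0]; simp
    have r0 := RR_pos' h T h0
    have r1 := mul_orb_le (RR_nonneg (Γ := Γ) h) (RR_total h).le RR_inv T
    have r2 := mul_le_mul_of_nonneg_left (ha T (hl.2.2 T h0)) r0.le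
    have r3 : RR Γ ν T * exp (a * T.card) ≤ 2 := by linarith
    have r4 := Real.log_le_log (mul_pos r0 (exp_pos _)) r3
    rw [Real.log_mul r0.ne' (exp_pos _).ne', log_exp] at r4
    have := mul_le_mul_of_nonneg_left (show a * T.card - log 2 ≤ -log (RR Γ ν T) by linarith) h0.le
    linarith
  have t0 := th_nonneg h.1
  have t1 : ∀ x, th ν x ≤ 1 := fun x => h.2.1 ▸ th_le h.1 x
  have c8 : sz (push cupm (nu2 ν)) = 2 * sz ν - sz (push Prod.snd (rs Γ ν)) := by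
    rw [sz_mu h, sz_eq, sz_eq, Finset.mul_sum, ← Finset.sum_sub_distrib]
    exact Finset.sum_congr rfl fun x _ => th_cup h x
  have c9 : 2.8 * AA ν - 2.4 * sz (push Prod.snd (rs Γ ν)) ≤ AA (push cupm (nu2 ν)) := by
    rw [sz_mu h]
    unfold AA
    rw [Finset.mul_sum, Finset.mul_sum, ← Finset.sum_sub_distrib]
    exact Finset.sum_le_sum fun x _ => by rw [th_cup h]; exact phi_double (t0 x) (t1 x)
  have c10 : 0 ≤ AA ν := Finset.sum_nonneg fun x _ => phi_nonneg (t0 x)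
  have c11 : 0 ≤ sz (push Prod.snd (rs Γ ν)) := by rw [sz_mu h]; positivity
  have l2 := Real.log_two_lt_d9
  have l16 : log 16 = 4 * log 2 := by
    rw [show (16 : ℝ) = 2 ^ 4 by norm_num, Real.log_pow]; norm_num
  unfold Phi at c1 c3 hν
  rw [c8] at c3
  obtain ⟨m, hm⟩ : ∃ m, m = sz (push Prod.snd (rs Γ ν)) := ⟨_, rfl⟩
  rw [← hm] at c2 c3 c5 c7 c9 c11
  have d1 := mul_le_mul_of_nonneg_right hab c11
  have d2 := mul_le_mul_of_nonneg_right (show 1 / 48 + log 16 ≤ 3 by linarith) c11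
  nlinarith

end

omit [Fintype X] in
lemma piH_nonneg (H S : Finset X) : 0 ≤ piH Γ H S :=
  sym_nonneg (fun _ => by split_ifs <;> norm_num) S

lemma start (H F : Finset X) (hF : 0 < piH Γ H F) (b : ℝ) :
    ∃ ν, IsLaw H ν ∧ b * F.card + log (piH Γ H F) ≤ Phi Γ b ν := by
  obtain ⟨Q, hQ⟩ : ∃ Q : Finset X → ℝ, Q = sym Γ (fun S => if S = F then 1 else 0) := ⟨_, rfl⟩
  have i0 : ∀ S : Finset X, (0 : ℝ) ≤ if S = F then 1 else 0 := fun S => by
    split_ifs <;> norm_num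
  have Q0 : ∀ S, 0 ≤ Q S := hQ ▸ sym_nonneg i0
  have Qi : ∀ (g : Γ) S, Q (g • S) = Q S := hQ ▸ sym_smul _
  have Q1 : ∑ S, Q S = 1 := by rw [hQ, sum_sym]; simp
  have Qc : ∀ S, 0 < Q S → S.card = F.card := fun S hS => by
    obtain ⟨g, hg⟩ := exists_of_sym_pos (hQ ▸ hS)
    by_cases e : g • S = F
    · rw [← e, card_smul_finset]
    · simp [e] at hg
  have Q2 : ∑ S, (if S ⊆ H then 1 else 0) * Q S = piH Γ H F := by
    rw [← sum_sym_mul (Γ := Γ) _ Q Qi]
    have := sum_sym_mul (Γ := Γ) (fun S => if S = F then 1 else 0) (piH Γ H) (sym_smul _)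
    rw [← hQ] at this
    simp only [ite_mul, one_mul, zero_mul, Finset.sum_ite_eq', mem_univ, if_true] at this
    rw [← this]
    exact Finset.sum_congr rfl fun S _ => mul_comm _ _
  obtain ⟨ν, hν⟩ : ∃ ν : Finset X → ℝ, ν = fun S => (if S ⊆ H then 1 else 0) * Q S / piH Γ H F :=
    ⟨_, rfl⟩
  have ν0 : ∀ S, 0 ≤ ν S := fun S => by
    rw [hν]; exact div_nonneg (mul_nonneg (by split_ifs <;> norm_num) (Q0 S)) hF.le
  have ν1 : ∑ S, ν S = 1 := by
    rw [hν]; dsimp only; rw [← Finset.sum_div, Q2, div_self hF.ne']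
  have νp : ∀ S, 0 < ν S → S ⊆ H ∧ 0 < Q S := fun S hS => by
    rw [hν] at hS
    have := (div_pos_iff_of_pos_right hF).1 hS
    by_cases e : S ⊆ H
    · exact ⟨e, by simpa [e] using this⟩
    · simp [e] at this
  refine ⟨ν, ⟨ν0, ν1, fun S hS => (νp S hS).1⟩, ?_⟩
  have k1 := KL_sym_le (Γ := Γ) ν0 Q0 (fun S hS => (νp S hS).2) (by rw [Q1, ν1]) Qi
  have k2 : KL ν Q = -log (piH Γ H F) := by
    rw [← one_mul (-log _), ← ν1, Finset.sum_mul]
    refine Finset.sum_congr rfl fun S _ => ?_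
    rcases (ν0 S).eq_or_lt with h0 | h0
    · rw [← h0]; simp
    · obtain ⟨a1, a2⟩ := νp S h0
      have : ν S = Q S / piH Γ H F := by rw [hν]; simp [a1]
      rw [show log (ν S) = log (Q S) - log (piH Γ H F) by rw [this, Real.log_div a2.ne' hF.ne']]
      ring
  have k3 : sz ν = F.card := by
    rw [← one_mul (F.card : ℝ), ← ν1, Finset.sum_mul]
    refine Finset.sum_congr rfl fun S _ => ?_
    rcases (ν0 S).eq_or_lt with h0 | h0
    · rw [← h0]; simp
    · rw [Qc S (νp S h0).2]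
  have k4 : 0 ≤ AA ν := Finset.sum_nonneg fun x _ => phi_nonneg (th_nonneg ν0 x)
  unfold Phi
  rw [k3]
  linarith

theorem spread (H : Finset X) {q : ℝ} (hq : 0 < q)
    (hE : ∀ J ⊆ H, 1 / 2 ≤ ((orb Γ J).card : ℝ) * q ^ J.card) (S : Finset X) :
    piH Γ H S ≤ (exp 40 * q) ^ S.card := by
  by_contra hS
  push Not at hS
  have p1 : piH Γ H ∅ = 1 := by
    simp [piH, sym]
  have hSne : S.Nonempty := by
    rcases S.eq_empty_or_nonempty with rfl | h
    · simp [p1] at hS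
    · exact h
  have hSp : 0 < piH Γ H S := lt_of_le_of_lt (by positivity) hS
  obtain ⟨F, hF, hmax⟩ := Finset.exists_max_image
    (univ.filter fun T : Finset X => T.Nonempty ∧ 0 < piH Γ H T)
    (fun T => log (piH Γ H T) / T.card) ⟨S, by simp [hSne, hSp]⟩
  simp only [mem_filter, mem_univ, true_and] at hF hmax
  obtain ⟨b, hb⟩ : ∃ b, b = -(log (piH Γ H F) / F.card) := ⟨_, rfl⟩
  have hFc : (1 : ℝ) ≤ F.card := by exact_mod_cast hF.1.card_pos
  have hb1 : ∀ T, piH Γ H T * exp (b * T.card) ≤ 1 := fun T => by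
    rcases T.eq_empty_or_nonempty with rfl | h
    · simp [p1]
    rcases (piH_nonneg (Γ := Γ) H T).eq_or_lt with h0 | h0
    · rw [← h0]; simp
    have hT : (0 : ℝ) < T.card := by exact_mod_cast h.card_pos
    have := hmax T ⟨h, h0⟩
    rw [div_le_iff₀ hT] at this
    rw [← exp_log h0, ← exp_add, Real.exp_le_one_iff, hb]
    linarith
  have ha : ∀ J ⊆ H, exp (-log q * J.card) ≤ 2 * (orb Γ J).card := fun J hJ => by
    have e : exp (-log q * J.card) = (q ^ J.card)⁻¹ := by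
      rw [neg_mul, exp_neg, mul_comm, exp_nat_mul, exp_log hq]
    rw [e, inv_le_iff_one_le_mul₀ (by positivity)]
    linarith [hE J hJ]
  have hab : b + 40 ≤ -log q := by
    have hT : (0 : ℝ) < S.card := by exact_mod_cast hSne.card_pos
    have h1 := hmax S ⟨hSne, hSp⟩
    have h2 := Real.log_le_log (by positivity) hS.le
    rw [Real.log_pow, Real.log_mul (exp_pos _).ne' hq.ne', log_exp] at h2
    have h3 : 40 + log q ≤ log (piH Γ H S) / S.card := by
      rw [le_div_iff₀ hT]; linarith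
    linarith
  obtain ⟨ν₀, l0, hν₀⟩ := start H F hF.2 (b + 1)
  have hbF : b * F.card = -log (piH Γ H F) := by
    rw [hb]; field_simp
  have bdd : BddAbove (Phi Γ (b + 1) '' {ν | IsLaw H ν}) :=
    ⟨2 * Fintype.card X, by rintro _ ⟨ν, hν, rfl⟩; exact Phi_le hν hb1⟩
  have hM : ∀ ν', IsLaw H ν' → Phi Γ (b + 1) ν' ≤ sSup (Phi Γ (b + 1) '' {ν | IsLaw H ν}) :=
    fun ν' h => le_csSup bdd ⟨ν', h, rfl⟩
  obtain ⟨_, ⟨ν, hν, rfl⟩, hlt⟩ := exists_lt_of_lt_csSup
    (s := Phi Γ (b + 1) '' {ν | IsLaw H ν}) ⟨_, ν₀, l0, rfl⟩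
    (show sSup (Phi Γ (b + 1) '' {ν | IsLaw H ν}) - 1 / 10 < _ from sub_lt_self _ (by norm_num))
  have := extremal hν hb1 ha hab hM hlt.le
  have := hM _ l0
  linarith

end Vale.Agent.P064
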