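import Mathlib

namespace Vale.Agent.P064
open Finset

variable {X : Type*} [DecidableEq X]

/-- expectation of `f` at a `p`-random subset of `E` -/
noncomputable def Ex (p : ℝ) (E : Finset X) (f : Finset X → ℝ) : ℝ :=
  ∑ W ∈ E.powerset, p ^ W.card * (1 - p) ^ (E.card - W.card) * f W

lemma Ex_insert (p : ℝ) {E : Finset X} {x : X} (hx : x ∉ E) (f : Finset X → ℝ) :
    Ex p (insert x E) f = (1 - p) * Ex p E f + p * Ex p E (fun W => f (insert x W)) := by
  unfold Ex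
  rw [Finset.sum_powerset_insert hx, Finset.mul_sum, Finset.mul_sum, card_insert_of_notMem hx]
  congr 1
  · refine Finset.sum_congr rfl fun W hW => ?_
    have := card_le_card (mem_powerset.1 hW)
    rw [show E.card + 1 - W.card = E.card - W.card + 1 by omega]; ring
  · refine Finset.sum_congr rfl fun W hW => ?_
    have hW' : x ∉ W := fun c => hx (mem_powerset.1 hW c)
    rw [card_insert_of_notMem hW', show E.card + 1 - (W.card + 1) = E.card - W.card by omega]
    ring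

omit [DecidableEq X] in
lemma Ex_mono {p : ℝ} (h0 : 0 ≤ p) (h1 : p ≤ 1) {E : Finset X} {f g : Finset X → ℝ}
    (h : ∀ W ⊆ E, f W ≤ g W) : Ex p E f ≤ Ex p E g :=
  Finset.sum_le_sum fun W hW => mul_le_mul_of_nonneg_left (h W (mem_powerset.1 hW))
    (mul_nonneg (pow_nonneg h0 _) (pow_nonneg (by linarith) _))

omit [DecidableEq X] in
lemma Ex_add (p : ℝ) (E : Finset X) (f g : Finset X → ℝ) :
    Ex p E (fun W => f W + g W) = Ex p E f + Ex p E g := by
  unfold Ex; rw [← Finset.sum_add_distrib]; exact Finset.sum_congr rfl fun _ _ => by ring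

omit [DecidableEq X] in
lemma Ex_mul (p c : ℝ) (E : Finset X) (f : Finset X → ℝ) :
    Ex p E (fun W => c * f W) = c * Ex p E f := by
  unfold Ex; rw [Finset.mul_sum]; exact Finset.sum_congr rfl fun _ _ => by ring

lemma Ex_const (p c : ℝ) (E : Finset X) : Ex p E (fun _ => c) = c := by
  induction E using Finset.induction_on with
  | empty => simp [Ex]
  | insert x E hx ih => rw [Ex_insert p hx, ih]; ring

lemma Ex_union (p r : ℝ) (E : Finset X) (f : Finset X → ℝ) :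
    Ex p E (fun W => Ex r E fun W' => f (W ∪ W')) = Ex (1 - (1 - p) * (1 - r)) E f := by
  induction E using Finset.induction_on generalizing f with
  | empty => simp [Ex]
  | insert x E hx ih =>
    rw [Ex_insert p hx, Ex_insert _ hx f]
    simp_rw [Ex_insert r hx, Finset.union_insert, Finset.insert_union, Finset.insert_idem]
    rw [Ex_add, Ex_add, Ex_mul, Ex_mul, Ex_mul, ih f, ih (fun W => f (insert x W))]
    ring

lemma Ex_subset (p : ℝ) (E : Finset X) (S : Finset X) (hS : S ⊆ E) :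
    Ex p E (fun W => if S ⊆ W then 1 else 0) = p ^ S.card := by
  induction E using Finset.induction_on generalizing S with
  | empty => simp [Ex, subset_empty.1 hS]
  | insert x E hx ih =>
    rw [Ex_insert p hx]
    by_cases h : x ∈ S
    · have e1 : Ex p E (fun W => if S ⊆ W then 1 else 0) = 0 := by
        refine Finset.sum_eq_zero fun W hW => ?_
        have : ¬ S ⊆ W := fun c => hx (mem_powerset.1 hW (c h))
        simp [this]
      simp_rw [Finset.subset_insert_iff]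
      rw [e1, ih (S.erase x) (Finset.subset_insert_iff.1 hS), ← card_erase_add_one h]
      ring
    · simp_rw [Finset.subset_insert_iff_of_notMem h]
      rw [ih S ((Finset.subset_insert_iff_of_notMem h).1 hS)]
      ring

lemma sum_le_sum_injOn {α β : Type*} [DecidableEq β] {s : Finset α} {t : Finset β} {f : α → ℝ}
    {g : β → ℝ} (e : α → β) (he : Set.InjOn e s) (ht : s.image e ⊆ t)
    (h : ∀ a ∈ s, f a ≤ g (e a)) (hg : ∀ b ∈ t, b ∉ s.image e → 0 ≤ g b) :
    ∑ a ∈ s, f a ≤ ∑ b ∈ t, g b :=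
  (Finset.sum_le_sum h).trans ((Finset.sum_image he).symm.le.trans
    (Finset.sum_le_sum_of_subset_of_nonneg ht hg))

lemma Ex_shift {p q : ℝ} (hp : 0 < p) (h1 : p ≤ 1) (hq : 0 ≤ q) (E : Finset X)
    (𝒰 𝒱 : Finset X → Finset (Finset X))
    (hU : ∀ W ⊆ E, ∀ U ∈ 𝒰 W, U ⊆ E ∧ Disjoint W U ∧ U ∈ 𝒱 (W ∪ U)) :
    Ex p E (fun W => ∑ U ∈ 𝒰 W, q ^ U.card) ≤ Ex p E (fun Z => ∑ U ∈ 𝒱 Z, (q / p) ^ U.card) := by
  unfold Ex
  simp_rw [Finset.mul_sum]
  rw [Finset.sum_sigma', Finset.sum_sigma']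
  have w0 : ∀ Z : Finset X, 0 ≤ p ^ Z.card * (1 - p) ^ (E.card - Z.card) := fun Z =>
    mul_nonneg (pow_nonneg hp.le _) (pow_nonneg (by linarith) _)
  refine sum_le_sum_injOn
    (fun z : (Σ _ : Finset X, Finset X) => (⟨z.1 ∪ z.2, z.2⟩ : Σ _ : Finset X, Finset X))
    ?_ ?_ ?_ ?_
  · rintro ⟨W, U⟩ h ⟨W', U'⟩ h' e
    simp only [coe_sigma, Set.mem_sigma_iff, mem_coe, mem_powerset] at h h'
    simp only [Sigma.mk.injEq, heq_eq_eq] at e ⊢
    obtain ⟨e1, rfl⟩ := e
    refine ⟨?_, rfl⟩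
    rw [← Finset.union_sdiff_cancel_right (hU W h.1 U h.2).2.1, e1,
      Finset.union_sdiff_cancel_right (hU W' h'.1 U h'.2).2.1]
  · intro z hz
    obtain ⟨⟨W, U⟩, h, rfl⟩ := mem_image.1 hz
    simp only [mem_sigma, mem_powerset] at h ⊢
    exact ⟨union_subset h.1 (hU W h.1 U h.2).1, (hU W h.1 U h.2).2.2⟩
  · rintro ⟨W, U⟩ h
    simp only [mem_sigma, mem_powerset] at h
    obtain ⟨a1, a2, -⟩ := hU W h.1 U h.2
    have c := card_le_card (union_subset h.1 a1)
    dsimp only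
    rw [card_union_of_disjoint a2] at c ⊢
    have e : (1 - p) ^ (E.card - W.card) ≤ (1 - p) ^ (E.card - (W.card + U.card)) :=
      pow_le_pow_of_le_one (by linarith) (by linarith) (by omega)
    calc p ^ W.card * (1 - p) ^ (E.card - W.card) * q ^ U.card
        ≤ p ^ W.card * (1 - p) ^ (E.card - (W.card + U.card)) * q ^ U.card := by gcongr
      _ = _ := by rw [div_pow, pow_add]; field_simp
  · intro z _ _
    exact mul_nonneg (w0 _) (by positivity)

open Classical in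
theorem frag {Ω : Type*} {q c : ℝ} (hq : 0 < q) (h1 : 16 * q ≤ 1) (hc : 0 ≤ c) (E : Finset X)
    (i : ℕ) (I : Finset Ω) (S : Ω → Finset X) (hSE : ∀ ω ∈ I, S ω ⊆ E)
    (hSc : ∀ ω ∈ I, (S ω).card < 2 ^ i)
    (hsp : ∀ T, c * (I.filter fun ω => T ⊆ S ω).card ≤ q ^ T.card) :
    Ex (1 - (1 - 16 * q) ^ i) E (fun W => if ∃ ω ∈ I, S ω ⊆ W then 0 else 1) ≤
      1 - c * I.card + (1 / 2 - (1 / 2) ^ (i + 1)) := by
  induction i generalizing I S with
  | zero =>
    rcases I.eq_empty_or_nonempty with rfl | ⟨ω, hω⟩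
    · simp [Ex_const]
    · have e : S ω = ∅ := card_eq_zero.1 (by have := hSc ω hω; omega)
      have : ∀ W, (∃ ω ∈ I, S ω ⊆ W) := fun W => ⟨ω, hω, by simp [e]⟩
      have h := hsp ∅
      simp only [empty_subset, filter_true, card_empty, pow_zero] at h
      simp only [this, if_true, Ex_const]
      norm_num
      linarith
  | succ i ih =>
    have hex : ∀ W ω, ∃ ω', ω ∈ I → (ω' ∈ I ∧ S ω' ⊆ W ∪ S ω) ∧
        ∀ ω'' ∈ I, S ω'' ⊆ W ∪ S ω → (S ω' \ W).card ≤ (S ω'' \ W).card := fun W ω => by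
      by_cases hω : ω ∈ I
      · obtain ⟨ω', a, b⟩ := Finset.exists_min_image (I.filter fun ω' => S ω' ⊆ W ∪ S ω)
          (fun ω' => (S ω' \ W).card) ⟨ω, by simp [hω]⟩
        simp only [mem_filter] at a b
        exact ⟨ω', fun _ => ⟨a, fun ω'' h h' => b ω'' ⟨h, h'⟩⟩⟩
      · exact ⟨ω, fun h => absurd h hω⟩
    choose m hm using hex
    have hT : ∀ W, ∀ ω ∈ I, S (m W ω) \ W ⊆ S ω := fun W ω hω x hx => by
      have := (hm W ω hω).1.2 (mem_sdiff.1 hx).1
      exact (mem_union.1 this).resolve_left (mem_sdiff.1 hx).2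
    have p0 : (0 : ℝ) ≤ 1 - 16 * q := by linarith
    have p1 : (1 - 16 * q) ^ i ≤ 1 := pow_le_one₀ p0 (by linarith)
    have p2 : 0 ≤ (1 - 16 * q) ^ i := pow_nonneg p0 _
    have e0 : 1 - (1 - 16 * q) ^ (i + 1) = 1 - (1 - 16 * q) * (1 - (1 - (1 - 16 * q) ^ i)) := by
      ring
    rw [e0, ← Ex_union]
    obtain ⟨𝒰, h𝒰⟩ : ∃ 𝒰 : Finset X → Finset (Finset X), 𝒰 = fun W =>
      (I.filter fun ω => ¬ (S (m W ω) \ W).card < 2 ^ i).image fun ω => S (m W ω) \ W := ⟨_, rfl⟩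
    obtain ⟨𝒱, h𝒱⟩ : ∃ 𝒱 : Finset X → Finset (Finset X), 𝒱 = fun Z =>
      E.powerset.filter fun U => 2 ^ i ≤ U.card ∧ (∃ ω ∈ I, S ω ⊆ Z) ∧
        ∀ ω ∈ I, S ω ⊆ Z → U ⊆ S ω := ⟨_, rfl⟩
    have step : ∀ W ⊆ E, Ex (1 - (1 - 16 * q) ^ i) E
        (fun W' => if ∃ ω ∈ I, S ω ⊆ W ∪ W' then 0 else 1) ≤
        (1 - c * I.card + (1 / 2 - (1 / 2) ^ (i + 1))) + ∑ U ∈ 𝒰 W, q ^ U.card := fun W _ => by
      have a1 := ih (I.filter fun ω => (S (m W ω) \ W).card < 2 ^ i) (fun ω => S (m W ω) \ W)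
        (fun ω hω => (hT W ω (mem_filter.1 hω).1).trans (hSE ω (mem_filter.1 hω).1))
        (fun ω hω => (mem_filter.1 hω).2)
        (fun T => le_trans (mul_le_mul_of_nonneg_left (Nat.cast_le.2 (card_le_card fun ω hω => by
          simp only [mem_filter] at hω ⊢
          exact ⟨hω.1.1, hω.2.trans (hT W ω hω.1.1)⟩)) hc) (hsp T))
      have a2 : Ex (1 - (1 - 16 * q) ^ i) E (fun W' => if ∃ ω ∈ I, S ω ⊆ W ∪ W' then 0 else 1) ≤
          Ex (1 - (1 - 16 * q) ^ i) E (fun W' => if ∃ ω ∈ I.filter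
            (fun ω => (S (m W ω) \ W).card < 2 ^ i), S (m W ω) \ W ⊆ W' then 0 else 1) := by
        refine Ex_mono (by linarith) (by linarith) fun W' _ => ?_
        by_cases h : ∃ ω ∈ I.filter
            (fun ω => (S (m W ω) \ W).card < 2 ^ i), S (m W ω) \ W ⊆ W'
        · obtain ⟨ω, hω, h'⟩ := h
          rw [if_pos ⟨m W ω, (hm W ω (mem_filter.1 hω).1).1.1, sdiff_le_iff.1 h'⟩]
          split_ifs <;> norm_num
        · rw [if_neg h]; split_ifs <;> norm_num
      have a3 : c * ((I.filter fun ω => ¬ (S (m W ω) \ W).card < 2 ^ i).card : ℝ) ≤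
          ∑ U ∈ 𝒰 W, q ^ U.card := by
        rw [Finset.card_eq_sum_card_image (fun ω => S (m W ω) \ W), h𝒰]
        push_cast
        rw [Finset.mul_sum]
        refine Finset.sum_le_sum fun U _ => le_trans (mul_le_mul_of_nonneg_left
          (Nat.cast_le.2 (card_le_card fun ω hω => ?_)) hc) (hsp U)
        simp only [mem_filter] at hω ⊢
        exact ⟨hω.1.1, hω.2 ▸ hT W ω hω.1.1⟩
      have a4 : ((I.filter fun ω => (S (m W ω) \ W).card < 2 ^ i).card : ℝ) +
          (I.filter fun ω => ¬ (S (m W ω) \ W).card < 2 ^ i).card = I.card := by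
        exact_mod_cast Finset.card_filter_add_card_filter_not _
      rw [← a4]
      linarith
    have b1 := Ex_mono (p := 16 * q) (by linarith) h1 step
    rw [Ex_add, Ex_const] at b1
    have b2 := Ex_shift (p := 16 * q) (by linarith) h1 hq.le E 𝒰 𝒱 (fun W _ U hU => by
      rw [h𝒰] at hU
      obtain ⟨ω, hω, rfl⟩ := mem_image.1 hU
      obtain ⟨hω, hc'⟩ := mem_filter.1 hω
      refine ⟨(hT W ω hω).trans (hSE ω hω), disjoint_sdiff, ?_⟩
      rw [h𝒱]
      refine mem_filter.2 ⟨mem_powerset.2 ((hT W ω hω).trans (hSE ω hω)), not_lt.1 hc',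
        ⟨m W ω, (hm W ω hω).1.1, by simp⟩, fun ω' hω' h' => ?_⟩
      have c1 := (hm W ω hω).2 ω' hω' (h'.trans (union_subset_union_right (hT W ω hω)))
      have c2 : S ω' \ W ⊆ S (m W ω) \ W := sdiff_le_iff.2 h'
      rw [← Finset.eq_of_subset_of_card_le c2 c1]
      exact sdiff_subset)
    have b3 : ∀ Z ⊆ E, ∑ U ∈ 𝒱 Z, (q / (16 * q)) ^ U.card ≤ (1 / 2 : ℝ) ^ (i + 2) := fun Z _ => by
      rw [show q / (16 * q) = 1 / 16 by field_simp]
      rcases (𝒱 Z).eq_empty_or_nonempty with h | ⟨U, hU⟩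
      · rw [h]; simp
      rw [h𝒱] at hU
      obtain ⟨ω, hω, hZ⟩ := (mem_filter.1 hU).2.2.1
      have d1 : (𝒱 Z).card ≤ 2 ^ (2 ^ (i + 1)) := by
        refine (card_le_card (t := (S ω).powerset) fun V hV => ?_).trans ?_
        · rw [h𝒱] at hV
          exact mem_powerset.2 ((mem_filter.1 hV).2.2.2 ω hω hZ)
        · rw [card_powerset]
          exact Nat.pow_le_pow_right (by norm_num) (hSc ω hω).le
      have d2 : ∑ U ∈ 𝒱 Z, (1 / 16 : ℝ) ^ U.card ≤ (𝒱 Z).card • (1 / 16 : ℝ) ^ (2 ^ i) := by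
        refine Finset.sum_le_card_nsmul _ _ _ fun V hV => ?_
        rw [h𝒱] at hV
        exact pow_le_pow_of_le_one (by norm_num) (by norm_num) (mem_filter.1 hV).2.1
      have d3 : i + 2 ≤ 2 * 2 ^ i := by have := Nat.lt_two_pow_self (n := i); omega
      have d4 : ((𝒱 Z).card : ℝ) ≤ 4 ^ (2 ^ i) := by
        rw [pow_succ, mul_comm, pow_mul] at d1
        exact_mod_cast d1
      rw [nsmul_eq_mul] at d2
      calc _ ≤ (4 : ℝ) ^ (2 ^ i) * (1 / 16 : ℝ) ^ (2 ^ i) :=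
            d2.trans (mul_le_mul_of_nonneg_right d4 (by positivity))
        _ = (1 / 2 : ℝ) ^ (2 * 2 ^ i) := by rw [← mul_pow, pow_mul]; norm_num
        _ ≤ _ := pow_le_pow_of_le_one (by norm_num) (by norm_num) d3
    have b4 := Ex_mono (p := 16 * q) (by linarith) h1 b3
    rw [Ex_const] at b4
    have b5 : (1 / 2 : ℝ) ^ (i + 1) = 2 * (1 / 2) ^ (i + 2) := by ring
    have b6 : (1 / 2 : ℝ) ^ (i + 1 + 1) = (1 / 2) ^ (i + 2) := rfl
    linarith

end Vale.Agent.P064
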