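import Vale.Agent.P064.Defs
import Vale.Agent.P064.Ext
import Vale.Agent.P064.Frag

namespace Vale.Agent.P064
open Finset SimpleGraph
open scoped Pointwise

/-- permutations of the vertices act on unordered pairs -/
@[reducible] def act (n : ℕ) : MulAction (Equiv.Perm (Fin n)) (Sym2 (Fin n)) where
  smul g x := Sym2.map g x
  one_smul x := by
    change Sym2.map _ x = x
    simp
  mul_smul g h x := by
    change Sym2.map _ x = Sym2.map _ (Sym2.map _ x)
    rw [Sym2.map_map]; rfl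

attribute [local instance] act

lemma act_mk {n : ℕ} (g : Equiv.Perm (Fin n)) (a b : Fin n) : g • s(a, b) = s(g a, g b) := rfl

def Eall (n : ℕ) : Finset (Sym2 (Fin n)) := univ.filter fun x => ¬ x.IsDiag

open Classical in
noncomputable def fin {α : Type*} [Fintype α] (s : Set α) : Finset α := univ.filter (· ∈ s)

@[simp] lemma mem_fin {α : Type*} [Fintype α] (s : Set α) (x : α) : x ∈ fin s ↔ x ∈ s := by
  simp [fin]

lemma card_fin {α : Type*} [Fintype α] (s : Set α) : (fin s).card = s.ncard := by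
  rw [← Set.ncard_coe_finset]; congr 1; ext; simp

lemma card_Eall (n : ℕ) : (Eall n).card = n.choose 2 := by
  have := Sym2.card_subtype_not_diag (α := Fin n)
  rw [Fintype.card_subtype, Fintype.card_fin] at this
  exact this

lemma gnp_eq (n : ℕ) (p : ℝ) (f : SimpleGraph (Fin n) → ℝ) :
    gnpExp n p f = Ex p (Eall n) (fun W => f (fromEdgeSet (W : Set (Sym2 (Fin n))))) := by
  unfold gnpExp Ex
  have e : ∀ G : SimpleGraph (Fin n), fromEdgeSet ((fin G.edgeSet : Finset _) : Set _) = G :=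
    fun G => by
      rw [show ((fin G.edgeSet : Finset _) : Set _) = G.edgeSet by ext; simp, fromEdgeSet_edgeSet]
  refine Finset.sum_nbij' (fun G => fin G.edgeSet) (fun W => fromEdgeSet (W : Set _))
    ?_ ?_ ?_ ?_ ?_
  · intro G _
    refine mem_powerset.2 fun x hx => ?_
    simp only [Eall, mem_filter, mem_univ, true_and]
    exact G.not_isDiag_of_mem_edgeSet (by simpa using hx)
  · intro W _; exact mem_univ _
  · intro G _; exact e G
  · intro W hW
    ext x
    have : x ∈ W → x ∈ Eall n := fun h => mem_powerset.1 hW h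
    simp only [Eall, mem_filter, mem_univ, true_and] at this
    simpa using this
  · intro G _
    dsimp only
    rw [e, card_fin, card_Eall]

lemma Ex_one {X : Type*} [DecidableEq X] (E : Finset X) (f : Finset X → ℝ) : Ex 1 E f = f E := by
  induction E using Finset.induction_on generalizing f with
  | empty => simp [Ex]
  | insert x E hx ih => rw [Ex_insert 1 hx, ih, ih]; ring

lemma Ex_sum {X α : Type*} (p : ℝ) (E : Finset X) (s : Finset α) (f : α → Finset X → ℝ) :
    Ex p E (fun W => ∑ a ∈ s, f a W) = ∑ a ∈ s, Ex p E (f a) := by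
  unfold Ex
  simp_rw [Finset.mul_sum]
  exact Finset.sum_comm

lemma gnp_one (n : ℕ) (f : SimpleGraph (Fin n) → ℝ) : gnpExp n 1 f = f ⊤ := by
  rw [gnp_eq, Ex_one]
  congr 1
  ext a b
  simp [Eall]

variable {n : ℕ} {V : Type} [Fintype V] (H : SimpleGraph V) (e : V ↪ Fin n)

noncomputable def H0 : Finset (Sym2 (Fin n)) := fin (Sym2.map e '' H.edgeSet)

omit [Fintype V] in
lemma H0_elim {x : Sym2 (Fin n)} (hx : x ∈ H0 H e) : ∃ v w, H.Adj v w ∧ x = s(e v, e w) := by
  obtain ⟨y, hy, rfl⟩ := (mem_fin _ _).1 hx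
  induction y using Sym2.ind with
  | h v w => exact ⟨v, w, hy, rfl⟩

omit [Fintype V] in
lemma H0_intro {v w : V} (h : H.Adj v w) : s(e v, e w) ∈ H0 H e :=
  (mem_fin _ _).2 ⟨s(v, w), h, rfl⟩

omit [Fintype V] in
lemma smul_H0_subset {J : Finset (Sym2 (Fin n))} (hJ : J ⊆ H0 H e) (g : Equiv.Perm (Fin n)) :
    g • J ⊆ Eall n := by
  intro x hx
  obtain ⟨y, hy, rfl⟩ := mem_smul_finset.1 hx
  obtain ⟨v, w, h, rfl⟩ := H0_elim H e (hJ hy)
  simp [Eall, act_mk, h.ne]

def subF (J : Finset (Sym2 (Fin n))) : H.Subgraph where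
  verts := {v | ∃ w, H.Adj v w ∧ s(e v, e w) ∈ J}
  Adj v w := H.Adj v w ∧ s(e v, e w) ∈ J
  adj_sub h := h.1
  edge_vert h := ⟨_, h⟩
  symm := ⟨fun v w h => ⟨h.1.symm, by rw [Sym2.eq_swap]; exact h.2⟩⟩

lemma copy_le {J : Finset (Sym2 (Fin n))} (hJ : J ⊆ H0 H e) (W : Finset (Sym2 (Fin n))) :
    ((fromEdgeSet (W : Set (Sym2 (Fin n)))).copyCount (subF H e J).coe : ℝ) ≤
      ∑ S ∈ orb (Equiv.Perm (Fin n)) J, if S ⊆ W then 1 else 0 := by
  rw [Finset.sum_boole, Nat.cast_le]
  unfold copyCount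
  refine Finset.card_le_card_of_injOn (fun G' => fin G'.edgeSet) ?_ ?_
  · intro G' hG'
    simp only [coe_filter, mem_univ, true_and, Set.mem_ofPred_eq] at hG' ⊢
    obtain ⟨φ⟩ := hG'
    obtain ⟨σ, hσ⟩ := Equiv.Perm.exists_extending_pair
      (fun v : (subF H e J).verts => e v) (fun v => (φ v : Fin n))
      (e.injective.comp Subtype.val_injective) (Subtype.val_injective.comp φ.injective)
    refine ⟨mem_image.2 ⟨σ, mem_univ _, ?_⟩, fun x hx => ?_⟩
    · ext x
      rw [mem_fin, mem_smul_finset]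
      constructor
      · rintro ⟨y, hy, rfl⟩
        obtain ⟨v, w, h, rfl⟩ := H0_elim H e (hJ hy)
        have a : (subF H e J).Adj v w := ⟨h, hy⟩
        have b : (subF H e J).coe.Adj ⟨v, a.fst_mem⟩ ⟨w, a.snd_mem⟩ := a
        have c := φ.map_rel_iff.2 b
        rw [act_mk, hσ ⟨v, a.fst_mem⟩, hσ ⟨w, a.snd_mem⟩]
        exact c
      · intro hx
        induction x using Sym2.ind with
        | h a b =>
          have h : G'.Adj a b := hx
          have c : G'.coe.Adj ⟨a, h.fst_mem⟩ ⟨b, h.snd_mem⟩ := h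
          have d := φ.symm.map_rel_iff.2 c
          refine ⟨_, d.2, ?_⟩
          rw [act_mk, hσ, hσ]
          simp
    · have := G'.edgeSet_subset ((mem_fin _ _).1 hx)
      rw [edgeSet_fromEdgeSet] at this
      exact this.1
  · have key : ∀ G' G'' : (fromEdgeSet (W : Set (Sym2 (Fin n)))).Subgraph,
        Nonempty ((subF H e J).coe ≃g G'.coe) → fin G'.edgeSet = fin G''.edgeSet → G' ≤ G'' := by
      rintro G' G'' ⟨φ⟩ h
      have adj : ∀ a b, G'.Adj a b → G''.Adj a b := fun a b hab => by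
        have : s(a, b) ∈ fin G'.edgeSet := (mem_fin _ _).2 hab
        rw [h] at this
        exact (mem_fin G''.edgeSet _).1 this
      refine ⟨fun a ha => ?_, adj⟩
      obtain ⟨w, hw⟩ := (φ.symm ⟨a, ha⟩).2
      have a1 : (subF H e J).Adj (φ.symm ⟨a, ha⟩) w := hw
      have b : (subF H e J).coe.Adj (φ.symm ⟨a, ha⟩) ⟨w, a1.snd_mem⟩ := a1
      have c := φ.map_rel_iff.2 b
      rw [RelIso.apply_symm_apply] at c
      exact (adj _ _ c).fst_mem
    intro G' h' G'' h'' h
    simp only [coe_filter, mem_univ, true_and, Set.mem_ofPred_eq] at h' h''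
    exact le_antisymm (key _ _ h' h) (key _ _ h'' h.symm)

lemma exp_le {J : Finset (Sym2 (Fin n))} (hJ : J ⊆ H0 H e) {q : ℝ} (h0 : 0 ≤ q) (h1 : q ≤ 1) :
    gnpExp n q (fun G => (G.copyCount (subF H e J).coe : ℝ)) ≤
      ((orb (Equiv.Perm (Fin n)) J).card : ℝ) * q ^ J.card := by
  rw [gnp_eq]
  refine (Ex_mono h0 h1 fun W _ => copy_le H e hJ W).trans (le_of_eq ?_)
  rw [Ex_sum, Finset.sum_congr rfl (g := fun _ => q ^ J.card) fun S hS => by
    obtain ⟨g, -, rfl⟩ := mem_image.1 hS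
    rw [Ex_subset q _ _ (smul_H0_subset H e hJ g), card_smul_finset]]
  simp

omit [Fintype V] in
lemma contained {g : Equiv.Perm (Fin n)} {W : Finset (Sym2 (Fin n))} (h : g • H0 H e ⊆ W) :
    H ⊑ fromEdgeSet (W : Set (Sym2 (Fin n))) := by
  refine ⟨⟨⟨fun v => g (e v), fun {v w} hvw => ?_⟩, g.injective.comp e.injective⟩⟩
  rw [fromEdgeSet_adj]
  refine ⟨h (mem_smul_finset.2 ⟨_, H0_intro H e hvw, rfl⟩), fun c => hvw.ne ?_⟩
  exact e.injective (g.injective c)

lemma count_eq (T : Finset (Sym2 (Fin n))) (K : Finset (Sym2 (Fin n)))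
    [DecidablePred fun g : Equiv.Perm (Fin n) => T ⊆ g • K] :
    1 / (Fintype.card (Equiv.Perm (Fin n)) : ℝ) *
      (univ.filter fun g : Equiv.Perm (Fin n) => T ⊆ g • K).card =
      piH (Equiv.Perm (Fin n)) K T := by
  unfold piH sym
  rw [one_div, inv_mul_eq_div, ← Finset.sum_boole]
  congr 1
  refine Fintype.sum_equiv (Equiv.inv _) _ _ fun g => ?_
  simp only [Equiv.inv_apply, Finset.subset_smul_finset_iff]

include e in
lemma pc_le (hn : 2 ≤ n) (hH : H.edgeSet.Nonempty) {q : ℝ} (h0 : 0 ≤ q) (h1 : q ≤ 1)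
    (hq : ∀ F : H.Subgraph, 1 / 2 ≤ gnpExp n q (fun G => (G.copyCount F.coe : ℝ))) :
    pc n H ≤ 96 * Real.exp 40 * q * Real.log n := by
  have hE : ∀ J ⊆ H0 H e, 1 / 2 ≤ ((orb (Equiv.Perm (Fin n)) J).card : ℝ) * q ^ J.card :=
    fun J hJ => (hq _).trans (exp_le H e hJ h0 h1)
  have q0 : 0 < q := by
    refine h0.lt_of_ne fun c => ?_
    obtain ⟨y, hy⟩ := hH
    have := hE {Sym2.map e y} (singleton_subset_iff.2 ((mem_fin _ _).2 ⟨y, hy, rfl⟩))
    rw [← c] at this
    norm_num at this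
  have hsp := spread (H0 H e) q0 hE
  have bdd : BddBelow {p : ℝ | p ∈ Set.Icc (0 : ℝ) 1 ∧
      1 / 2 ≤ gnpExp n p (fun G => if 0 < G.copyCount H then 1 else 0)} :=
    ⟨0, fun p hp => hp.1.1⟩
  have l2 := Real.log_two_gt_d9
  have ln : Real.log 2 ≤ Real.log n := Real.log_le_log (by norm_num) (by exact_mod_cast hn)
  obtain ⟨r, hr⟩ : ∃ r, r = Real.exp 40 * q := ⟨_, rfl⟩
  have r0 : 0 < r := by rw [hr]; positivity
  rw [← hr] at hsp
  rw [mul_assoc 96, ← hr]
  by_cases c : 16 * r ≤ 1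
  · obtain ⟨i, hi⟩ : ∃ i, i = 2 * (Nat.log 2 n + 1) := ⟨_, rfl⟩
    have i1 : n.choose 2 < 2 ^ i := by
      refine (Nat.choose_le_pow n 2).trans_lt ?_
      rw [hi, mul_comm, pow_mul]
      exact Nat.pow_lt_pow_left (Nat.lt_pow_succ_log_self (by norm_num) n) (by norm_num)
    have i2 : (i : ℝ) ≤ 6 * Real.log n := by
      have a : (2 : ℝ) ^ Nat.log 2 n ≤ n := by
        exact_mod_cast Nat.pow_log_le_self 2 (by omega : n ≠ 0)
      have b := Real.log_le_log (by positivity) a
      rw [Real.log_pow] at b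
      have b2 : (0 : ℝ) ≤ Nat.log 2 n := Nat.cast_nonneg _
      rw [hi]; push_cast
      nlinarith
    have f := frag (c := 1 / (Fintype.card (Equiv.Perm (Fin n)) : ℝ)) r0 c (by positivity)
      (Eall n) i univ (fun g : Equiv.Perm (Fin n) => g • H0 H e)
      (fun g _ => smul_H0_subset H e subset_rfl g)
      (fun g _ => ((card_le_card (smul_H0_subset H e subset_rfl g)).trans
        (card_Eall n).le).trans_lt i1)
      (fun T => by rw [count_eq]; exact hsp T)
    have p0 : (0 : ℝ) ≤ 1 - 16 * r := by linarith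
    have p1 : (1 - 16 * r) ^ i ≤ 1 := pow_le_one₀ p0 (by linarith)
    have p2 : 0 ≤ (1 - 16 * r) ^ i := pow_nonneg p0 _
    have p3 := one_add_mul_le_pow (show (-2 : ℝ) ≤ -(16 * r) by linarith) i
    have p4 : (0 : ℝ) < (1 / 2) ^ (i + 1) := by positivity
    have p5 : 1 / (Fintype.card (Equiv.Perm (Fin n)) : ℝ) *
        (univ : Finset (Equiv.Perm (Fin n))).card = 1 := by
      rw [card_univ]; field_simp
    refine (csInf_le bdd (a := 1 - (1 - 16 * r) ^ i) ⟨⟨by linarith, by linarith⟩, ?_⟩).trans ?_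
    · rw [gnp_eq]
      have a : Ex (1 - (1 - 16 * r) ^ i) (Eall n) (fun W => 1 + (-1) *
          (if 0 < (fromEdgeSet (W : Set (Sym2 (Fin n)))).copyCount H then 1 else 0)) ≤ _ :=
        le_trans (Ex_mono (by linarith) (by linarith) fun W _ => ?_) f
      · rw [Ex_add, Ex_const, Ex_mul] at a
        linarith
      · by_cases h : ∃ g ∈ (univ : Finset (Equiv.Perm (Fin n))), g • H0 H e ⊆ W
        · rw [if_pos h]
          obtain ⟨g, -, hg⟩ := h
          rw [if_pos (copyCount_pos.2 (contained H e hg))]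
          norm_num
        · rw [if_neg h]; split_ifs <;> norm_num
    · have := mul_le_mul_of_nonneg_right i2 r0.le
      rw [← sub_eq_add_neg] at p3
      linarith
  · refine (csInf_le bdd (a := 1) ⟨⟨zero_le_one, le_rfl⟩, ?_⟩).trans ?_
    · rw [gnp_one, if_pos (copyCount_pos.2 (isContained_top_iff.2 ⟨e⟩))]; norm_num
    · nlinarith

theorem main (hn : 2 ≤ n) (hV : Fintype.card V ≤ n) (hH : H.edgeSet.Nonempty) :
    pc n H ≤ 96 * Real.exp 40 * pE n H * Real.log n := by
  obtain ⟨e⟩ : Nonempty (V ↪ Fin n) := Function.Embedding.nonempty_of_card_le (by simpa using hV)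
  have ln : 0 < Real.log n := Real.log_pos (by exact_mod_cast hn)
  have hc : 0 < 96 * Real.exp 40 * Real.log n := by positivity
  have : pc n H / (96 * Real.exp 40 * Real.log n) ≤ pE n H := by
    refine le_csInf ⟨1, ⟨zero_le_one, le_rfl⟩, fun F => ?_⟩ fun q hq => ?_
    · rw [gnp_one]
      have : 0 < (⊤ : SimpleGraph (Fin n)).copyCount F.coe :=
        copyCount_pos.2 (F.coe_isContained.trans (isContained_top_iff.2 ⟨e⟩))
      have : (1 : ℝ) ≤ (⊤ : SimpleGraph (Fin n)).copyCount F.coe := by exact_mod_cast this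
      linarith
    · rw [div_le_iff₀ hc]
      have := pc_le H e hn hH hq.1.1 hq.1.2 hq.2
      linarith
  rw [div_le_iff₀ hc] at this
  linarith

end Vale.Agent.P064
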