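import Vale.Agent.P064.Ent

namespace Vale.Agent.P064
open Finset Real

variable {X : Type*} [Fintype X] [DecidableEq X]

noncomputable def th (ν : Finset X → ℝ) (x : X) : ℝ := ∑ S, ν S * (if x ∈ S then 1 else 0)

noncomputable def sz (ν : Finset X → ℝ) : ℝ := ∑ S, ν S * (S.card : ℝ)

noncomputable def phi (t : ℝ) : ℝ := t * √t

noncomputable def AA (ν : Finset X → ℝ) : ℝ := ∑ x, phi (th ν x)

noncomputable def Ent {α : Type*} [Fintype α] (μ : α → ℝ) : ℝ := ∑ y, μ y * (-log (μ y))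

lemma card_eq_sum_ind (S : Finset X) : (S.card : ℝ) = ∑ x, if x ∈ S then (1 : ℝ) else 0 := by
  simp

lemma sz_eq (ν : Finset X → ℝ) : sz ν = ∑ x, th ν x := by
  unfold sz th
  simp_rw [card_eq_sum_ind, Finset.mul_sum]
  exact Finset.sum_comm

lemma th_nonneg {ν : Finset X → ℝ} (h : ∀ S, 0 ≤ ν S) (x : X) : 0 ≤ th ν x :=
  Finset.sum_nonneg fun S _ => mul_nonneg (h S) (by split_ifs <;> norm_num)

lemma th_le {ν : Finset X → ℝ} (h : ∀ S, 0 ≤ ν S) (x : X) : th ν x ≤ ∑ S, ν S :=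
  Finset.sum_le_sum fun S _ => by split_ifs <;> simp [h S]

def pre (ι : X → ℕ) (n : ℕ) (T : Finset X) : Finset X := T.filter fun y => ι y < n

noncomputable def del (ι : X → ℕ) (μ : Finset X → ℝ) (x : X) (T : Finset X) : ℝ :=
  push (pre ι (ι x)) (fun T' => μ T' * (if x ∈ T' then 1 else 0)) (pre ι (ι x) T) /
    push (pre ι (ι x)) μ (pre ι (ι x) T)

omit [Fintype X] in
lemma ind_nonneg {μ : Finset X → ℝ} (h : ∀ S, 0 ≤ μ S) (x : X) (T : Finset X) :
    0 ≤ μ T * (if x ∈ T then 1 else 0) := mul_nonneg (h T) (by split_ifs <;> norm_num)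

lemma del_nonneg (ι : X → ℕ) {μ : Finset X → ℝ} (h : ∀ S, 0 ≤ μ S) (x : X) (T : Finset X) :
    0 ≤ del ι μ x T :=
  div_nonneg (push_nonneg _ (ind_nonneg h x) _) (push_nonneg _ h _)

lemma del_pos (ι : X → ℕ) {μ : Finset X → ℝ} (h : ∀ S, 0 ≤ μ S) {x : X} {T : Finset X}
    (hT : 0 < μ T) (hx : x ∈ T) : 0 < del ι μ x T := by
  refine div_pos ?_ (hT.trans_le (le_push _ h T))
  have := le_push (pre ι (ι x)) (ind_nonneg h x) T
  simp only [hx, if_true, mul_one] at this
  exact hT.trans_le this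

lemma sum_mul_del (ι : X → ℕ) {μ : Finset X → ℝ} (h : ∀ S, 0 ≤ μ S) (x : X) :
    ∑ T, μ T * del ι μ x T ≤ th μ x := by
  unfold del th
  rw [← push_sum (pre ι (ι x)) μ (fun y =>
    push (pre ι (ι x)) (fun T' => μ T' * (if x ∈ T' then 1 else 0)) y / push (pre ι (ι x)) μ y),
    ← push_total (pre ι (ι x)) (fun T' => μ T' * (if x ∈ T' then 1 else 0))]
  refine Finset.sum_le_sum fun y _ => ?_
  rcases (push_nonneg (pre ι (ι x)) h y).eq_or_lt with h0 | h0
  · rw [← h0]; simpa using push_nonneg (pre ι (ι x)) (ind_nonneg h x) y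
  · rw [mul_div_cancel₀ _ h0.ne']

omit [Fintype X] [DecidableEq X] in
lemma pre_pre (ι : X → ℕ) (n : ℕ) {T T' : Finset X} (h : pre ι (n + 1) T' = pre ι (n + 1) T) :
    pre ι n T' = pre ι n T := by
  ext y
  have := Finset.ext_iff.1 h y
  simp only [pre, mem_filter] at this ⊢
  constructor
  · rintro ⟨h1, h2⟩; exact ⟨(this.1 ⟨h1, by omega⟩).1, h2⟩
  · rintro ⟨h1, h2⟩; exact ⟨(this.2 ⟨h1, by omega⟩).1, h2⟩

lemma push_pre_le (ι : X → ℕ) (hι : Function.Injective ι) {μ : Finset X → ℝ} (h : ∀ S, 0 ≤ μ S)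
    (h1 : ∑ S, μ S ≤ 1) (T : Finset X) (n : ℕ) :
    push (pre ι n) μ (pre ι n T) ≤ ∏ x ∈ pre ι n T, del ι μ x T := by
  induction n with
  | zero =>
    have : ∀ S, pre ι 0 S = ∅ := fun S => by simp [pre]
    simpa [push, this] using h1
  | succ n ih =>
    by_cases hx : ∃ x ∈ T, ι x = n
    · obtain ⟨x, hxT, rfl⟩ := hx
      have e1 : pre ι (ι x + 1) T = insert x (pre ι (ι x) T) := by
        ext y
        simp only [pre, mem_filter, mem_insert]
        constructor
        · rintro ⟨a, b⟩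
          rcases Nat.lt_succ_iff_lt_or_eq.1 b with c | c
          exacts [Or.inr ⟨a, c⟩, Or.inl (hι c)]
        · rintro (rfl | ⟨a, b⟩)
          exacts [⟨hxT, by omega⟩, ⟨a, by omega⟩]
      have e2 : x ∉ pre ι (ι x) T := by simp [pre]
      have e3 : push (pre ι (ι x + 1)) μ (pre ι (ι x + 1) T) ≤
          push (pre ι (ι x)) (fun T' => μ T' * (if x ∈ T' then 1 else 0)) (pre ι (ι x) T) := by
        refine Finset.sum_le_sum fun T' _ => ?_
        by_cases c : pre ι (ι x + 1) T' = pre ι (ι x + 1) T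
        · have c2 : x ∈ T' := by
            have : x ∈ pre ι (ι x + 1) T' := by rw [c, e1]; exact mem_insert_self _ _
            exact (mem_filter.1 this).1
          simp [c, pre_pre ι _ c, c2]
        · rw [if_neg c]
          split_ifs
          · exact ind_nonneg h x T'
          · exact le_rfl
      have e4 : push (pre ι (ι x)) (fun T' => μ T' * (if x ∈ T' then 1 else 0)) (pre ι (ι x) T)
          ≤ push (pre ι (ι x)) μ (pre ι (ι x) T) := by
        refine Finset.sum_le_sum fun T' _ => ?_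
        split_ifs
        · dsimp only
          split_ifs <;> simp [h T']
        · exact le_rfl
      have e5 : push (pre ι (ι x)) (fun T' => μ T' * (if x ∈ T' then 1 else 0)) (pre ι (ι x) T)
          ≤ del ι μ x T * push (pre ι (ι x)) μ (pre ι (ι x) T) := by
        rcases (push_nonneg (pre ι (ι x)) h (pre ι (ι x) T)).eq_or_lt with h0 | h0
        · rw [← h0] at e4 ⊢; simpa using e4
        · unfold del; rw [div_mul_cancel₀ _ h0.ne']
      rw [show ∏ y ∈ pre ι (ι x + 1) T, del ι μ y T = del ι μ x T * ∏ y ∈ pre ι (ι x) T,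
        del ι μ y T by rw [e1, Finset.prod_insert e2]]
      exact e3.trans (e5.trans (mul_le_mul_of_nonneg_left ih (del_nonneg ι h x T)))
    · have e1 : pre ι (n + 1) T = pre ι n T := by
        ext y
        simp only [pre, mem_filter]
        constructor
        · rintro ⟨a, b⟩
          rcases Nat.lt_succ_iff_lt_or_eq.1 b with c | c
          exacts [⟨a, c⟩, absurd ⟨y, a, c⟩ hx]
        · rintro ⟨a, b⟩
          exact ⟨a, by omega⟩
      have e3 : push (pre ι (n + 1)) μ (pre ι (n + 1) T) ≤ push (pre ι n) μ (pre ι n T) := by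
        refine Finset.sum_le_sum fun T' _ => ?_
        by_cases c : pre ι (n + 1) T' = pre ι (n + 1) T
        · simp [c, pre_pre ι _ c]
        · rw [if_neg c]
          split_ifs
          exacts [h T', le_rfl]
      rw [show ∏ y ∈ pre ι (n + 1) T, del ι μ y T = ∏ y ∈ pre ι n T, del ι μ y T by rw [e1]]
      exact e3.trans ih

lemma le_prod_del (ι : X → ℕ) (hι : Function.Injective ι) {μ : Finset X → ℝ} (h : ∀ S, 0 ≤ μ S)
    (h1 : ∑ S, μ S ≤ 1) (T : Finset X) : μ T ≤ ∏ x ∈ T, del ι μ x T := by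
  have := push_pre_le ι hι h h1 T (univ.sup ι + 1)
  have e : pre ι (univ.sup ι + 1) T = T := by
    refine Finset.filter_true_of_mem fun y _ => ?_
    exact Nat.lt_succ_of_le (Finset.le_sup (f := ι) (mem_univ y))
  refine (le_push (pre ι (univ.sup ι + 1)) h T).trans ?_
  rwa [show ∏ x ∈ pre ι (univ.sup ι + 1) T, del ι μ x T = ∏ x ∈ T, del ι μ x T by rw [e]] at this

omit [Fintype X] in
lemma kernel_le (ι : X → ℕ) (r : X → Finset X → ℝ) (hr : ∀ x T, 0 ≤ r x T)
    (hd : ∀ x T T', pre ι (ι x) T = pre ι (ι x) T' → r x T = r x T') (A : Finset X) :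
    ∑ T ∈ A.powerset, (∏ x ∈ A, exp (-r x T)) * ∏ x ∈ T, r x T ≤ 1 := by
  induction A using Finset.induction_on_max_value ι with
  | empty => simp
  | insert a s ha hm ih =>
    rw [Finset.sum_powerset_insert ha, ← Finset.sum_add_distrib]
    refine le_trans (Finset.sum_le_sum fun T hT => ?_) ih
    have hTs := mem_powerset.1 hT
    have haT : a ∉ T := fun c => ha (hTs c)
    have e : ∀ y, ι y ≤ ι a → r y (insert a T) = r y T := fun y hy => hd _ _ _ (by
      unfold pre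
      rw [Finset.filter_insert, if_neg (by omega)])
    have e1 : ∏ x ∈ s, exp (-r x (insert a T)) = ∏ x ∈ s, exp (-r x T) :=
      Finset.prod_congr rfl fun y hy => by rw [e y (hm y hy)]
    have e2 : ∏ x ∈ T, r x (insert a T) = ∏ x ∈ T, r x T :=
      Finset.prod_congr rfl fun y hy => by rw [e y (hm y (hTs hy))]
    rw [Finset.prod_insert ha, Finset.prod_insert ha, Finset.prod_insert haT, e1, e2, e a le_rfl]
    have p1 : 0 ≤ (∏ x ∈ s, exp (-r x T)) * ∏ x ∈ T, r x T :=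
      mul_nonneg (Finset.prod_nonneg fun _ _ => (exp_pos _).le)
        (Finset.prod_nonneg fun y _ => hr y T)
    have p2 : exp (-r a T) * (1 + r a T) ≤ 1 := by
      have := Real.add_one_le_exp (r a T)
      calc exp (-r a T) * (1 + r a T) ≤ exp (-r a T) * exp (r a T) :=
            mul_le_mul_of_nonneg_left (by linarith) (exp_pos _).le
        _ = 1 := by rw [← exp_add]; simp
    calc _ = (exp (-r a T) * (1 + r a T)) * ((∏ x ∈ s, exp (-r x T)) * ∏ x ∈ T, r x T) := by ring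
      _ ≤ 1 * _ := mul_le_mul_of_nonneg_right p2 p1
      _ = _ := one_mul _

lemma young {u d : ℝ} (hu : 0 ≤ u) (hd : 0 ≤ d) :
    u * d ^ (1 / 3 : ℝ) ≤ 2 / 3 * phi u + 1 / 3 * d := by
  obtain ⟨t, ht⟩ : ∃ t, t = d ^ (1 / 3 : ℝ) := ⟨_, rfl⟩
  have ht0 : 0 ≤ t := ht ▸ Real.rpow_nonneg hd _
  have ht3 : t ^ 3 = d := by
    rw [ht, ← Real.rpow_natCast, ← Real.rpow_mul hd]; norm_num
  obtain ⟨s, hs⟩ : ∃ s, s = √u := ⟨_, rfl⟩
  have hs0 : 0 ≤ s := hs ▸ Real.sqrt_nonneg _
  have hs2 : s ^ 2 = u := hs ▸ Real.sq_sqrt hu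
  unfold phi
  rw [← ht, ← hs, ← hs2, ← ht3]
  have : 0 ≤ (s - t) ^ 2 * (2 * s + t) := by positivity
  nlinarith

/-- conditional law of the first coordinate given the second -/
noncomputable def cond (σ : Finset X × Finset X → ℝ) (T A : Finset X) : ℝ :=
  σ (A, T) / push Prod.snd σ T

lemma push_snd (σ : Finset X × Finset X → ℝ) (T : Finset X) :
    push Prod.snd σ T = ∑ A, σ (A, T) := by
  unfold push
  rw [Fintype.sum_prod_type]
  simp

lemma push_fst (σ : Finset X × Finset X → ℝ) (A : Finset X) :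
    push Prod.fst σ A = ∑ T, σ (A, T) := by
  unfold push
  rw [Fintype.sum_prod_type_right]
  simp

lemma mul_cond {σ : Finset X × Finset X → ℝ} (h : ∀ z, 0 ≤ σ z) (T A : Finset X) :
    push Prod.snd σ T * cond σ T A = σ (A, T) := by
  unfold cond
  rcases (push_nonneg Prod.snd h T).eq_or_lt with h0 | h0
  · have := le_push Prod.snd h (A, T)
    rw [← h0] at this ⊢
    simp only [zero_mul]
    exact le_antisymm (h _) this
  · rw [mul_div_cancel₀ _ h0.ne']

lemma cond_nonneg {σ : Finset X × Finset X → ℝ} (h : ∀ z, 0 ≤ σ z) (T A : Finset X) :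
    0 ≤ cond σ T A := div_nonneg (h _) (push_nonneg _ h _)

lemma seq_bound {σ : Finset X × Finset X → ℝ} (h : ∀ z, 0 ≤ σ z) (h1 : ∑ z, σ z = 1)
    (hs : ∀ z, 0 < σ z → z.2 ⊆ z.1) :
    ∑ z, σ z * (log (push Prod.fst σ z.1) - log (σ z)) ≤
      1 / 3 * Ent (push Prod.snd σ) +
      1 / 24 * ∑ T, push Prod.snd σ T * AA (cond σ T) +
      (1 / 48 + log 16) * sz (push Prod.snd σ) := by
  obtain ⟨ι, hι⟩ : ∃ ι : X → ℕ, Function.Injective ι :=
    ⟨fun x => (Fintype.equivFin X x : ℕ), Fin.val_injective.comp (Fintype.equivFin X).injective⟩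
  obtain ⟨μ, hμ⟩ : ∃ μ, μ = push Prod.snd σ := ⟨_, rfl⟩
  obtain ⟨ν, hν⟩ : ∃ ν, ν = push Prod.fst σ := ⟨_, rfl⟩
  have μ0 : ∀ T, 0 ≤ μ T := hμ ▸ push_nonneg _ h
  have ν0 : ∀ T, 0 ≤ ν T := hν ▸ push_nonneg _ h
  have μ1 : ∑ T, μ T = 1 := by rw [hμ, push_total, h1]
  have ν1 : ∑ T, ν T = 1 := by rw [hν, push_total, h1]
  obtain ⟨r, hr⟩ : ∃ r : X → Finset X → ℝ, r = fun x T => 1 / 16 * del ι μ x T ^ (1 / 3 : ℝ) :=
    ⟨_, rfl⟩
  have r0 : ∀ x T, 0 ≤ r x T := fun x T => by
    rw [hr]; exact mul_nonneg (by norm_num) (Real.rpow_nonneg (del_nonneg ι μ0 x T) _)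
  have rd : ∀ x T T', pre ι (ι x) T = pre ι (ι x) T' → r x T = r x T' := fun x T T' e => by
    simp only [hr, del, e]
  have rp : ∀ z, 0 < σ z → ∀ x ∈ z.2, 0 < del ι μ x z.2 := fun z hz x hx =>
    del_pos ι μ0 (hμ ▸ hz.trans_le (le_push Prod.snd h z)) hx
  obtain ⟨k, hk⟩ : ∃ k : Finset X × Finset X → ℝ, k = fun z =>
    if z.2 ⊆ z.1 then (∏ x ∈ z.1, exp (-r x z.2)) * ∏ x ∈ z.2, r x z.2 else 0 := ⟨_, rfl⟩
  have k0 : ∀ z, 0 ≤ k z := fun z => by
    rw [hk]; dsimp only; split_ifs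
    · exact mul_nonneg (Finset.prod_nonneg fun _ _ => (exp_pos _).le)
        (Finset.prod_nonneg fun y _ => r0 y _)
    · exact le_rfl
  have rpos : ∀ z, 0 < σ z → ∀ x ∈ z.2, 0 < r x z.2 := fun z hz x hx => by
    rw [hr]; exact mul_pos (by norm_num) (Real.rpow_pos_of_pos (rp z hz x hx) _)
  have kp : ∀ z, 0 < σ z → 0 < k z := fun z hz => by
    rw [hk]; dsimp only; rw [if_pos (hs z hz)]
    exact mul_pos (Finset.prod_pos fun _ _ => exp_pos _) (Finset.prod_pos (rpos z hz))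
  have νp : ∀ z, 0 < σ z → 0 < ν z.1 := fun z hz => hν ▸ hz.trans_le (le_push Prod.fst h z)
  have g1 := gibbs univ σ (fun z => ν z.1 * k z) h (fun z => mul_nonneg (ν0 _) (k0 z))
    (fun z hz => mul_pos (νp z hz) (kp z hz))
  have g2 : ∑ z : Finset X × Finset X, ν z.1 * k z ≤ 1 := by
    rw [Fintype.sum_prod_type, ← ν1]
    refine Finset.sum_le_sum fun A _ => ?_
    dsimp only
    rw [← Finset.mul_sum]
    refine mul_le_of_le_one_right (ν0 A) ?_
    refine le_trans (le_of_eq ?_) (kernel_le ι r r0 rd A)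
    rw [hk]; dsimp only
    rw [← Finset.sum_filter]
    congr 1
    ext T; simp
  have g3 : ∀ z, σ z * (log (ν z.1) - log (σ z)) ≤ σ z * (log (ν z.1 * k z) - log (σ z)) +
      (σ z * ∑ x, (if x ∈ z.1 then 1 else 0) * r x z.2 + 1 / 3 * (σ z * -log (μ z.2)) +
        log 16 * (σ z * z.2.card)) := fun z => by
    rcases (h z).eq_or_lt with h0 | h0
    · rw [← h0]; simp
    have e1 : log (k z) = -(∑ x ∈ z.1, r x z.2) + ∑ x ∈ z.2, log (r x z.2) := by
      rw [hk]; dsimp only; rw [if_pos (hs z h0),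
        Real.log_mul (Finset.prod_pos fun _ _ => exp_pos _).ne' (Finset.prod_pos (rpos z h0)).ne',
        Real.log_prod fun _ _ => (exp_pos _).ne', Real.log_prod fun x hx => (rpos z h0 x hx).ne']
      simp
    have e2 : ∑ x ∈ z.2, log (r x z.2) =
        -(log 16 * z.2.card) + 1 / 3 * ∑ x ∈ z.2, log (del ι μ x z.2) := by
      rw [Finset.mul_sum, show -(log 16 * (z.2.card : ℝ)) = ∑ _x ∈ z.2, -log 16 by
        simp [mul_comm], ← Finset.sum_add_distrib]
      refine Finset.sum_congr rfl fun x hx => ?_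
      rw [hr]; dsimp only
      rw [Real.log_mul (by norm_num) (Real.rpow_pos_of_pos (rp z h0 x hx) _).ne',
        Real.log_rpow (rp z h0 x hx), one_div, Real.log_inv]
    have e3 : log (μ z.2) ≤ ∑ x ∈ z.2, log (del ι μ x z.2) := by
      rw [← Real.log_prod fun x hx => (rp z h0 x hx).ne']
      exact Real.log_le_log (hμ ▸ h0.trans_le (le_push Prod.snd h z))
        (le_prod_del ι hι μ0 μ1.le _)
    have e4 : ∑ x, (if x ∈ z.1 then 1 else 0) * r x z.2 = ∑ x ∈ z.1, r x z.2 := by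
      simp
    rw [Real.log_mul (νp z h0).ne' (kp z h0).ne', e4, e1, e2]
    nlinarith
  have g4 : ∑ z, σ z * ∑ x, (if x ∈ z.1 then 1 else 0) * r x z.2 ≤
      1 / 24 * ∑ T, μ T * AA (cond σ T) + 1 / 48 * sz μ := by
    have e1 : ∑ z, σ z * ∑ x, (if x ∈ z.1 then 1 else 0) * r x z.2 =
        ∑ T, ∑ x, μ T * (th (cond σ T) x * r x T) := by
      rw [Fintype.sum_prod_type_right]
      refine Finset.sum_congr rfl fun T _ => ?_
      simp_rw [Finset.mul_sum]
      rw [Finset.sum_comm]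
      refine Finset.sum_congr rfl fun x _ => ?_
      unfold th
      rw [Finset.sum_mul, Finset.mul_sum]
      refine Finset.sum_congr rfl fun A _ => ?_
      rw [← mul_cond h T A, hμ]; ring
    have e2 : ∑ T, ∑ x, μ T * del ι μ x T ≤ sz μ := by
      rw [Finset.sum_comm, sz_eq]
      exact Finset.sum_le_sum fun x _ => sum_mul_del ι μ0 x
    have e3 : ∑ T, ∑ x, μ T * (th (cond σ T) x * r x T) ≤
        1 / 24 * ∑ T, μ T * AA (cond σ T) + 1 / 48 * ∑ T, ∑ x, μ T * del ι μ x T := by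
      rw [Finset.mul_sum, Finset.mul_sum, ← Finset.sum_add_distrib]
      refine Finset.sum_le_sum fun T _ => ?_
      unfold AA
      rw [Finset.mul_sum, Finset.mul_sum, Finset.mul_sum, ← Finset.sum_add_distrib]
      refine Finset.sum_le_sum fun x _ => ?_
      have := mul_le_mul_of_nonneg_left
        (young (th_nonneg (cond_nonneg h T) x) (del_nonneg ι μ0 x T)) (μ0 T)
      rw [hr]; dsimp only
      nlinarith
    linarith
  have g5 := Finset.sum_le_sum fun z (_ : z ∈ univ) => g3 z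
  rw [Finset.sum_add_distrib, Finset.sum_add_distrib, Finset.sum_add_distrib, ← Finset.mul_sum,
    ← Finset.mul_sum] at g5
  have g6 : ∑ z, σ z * -log (μ z.2) = Ent μ := by
    unfold Ent
    rw [← push_sum Prod.snd σ (fun T => -log (μ T)), ← hμ]
  have g7 : ∑ z, σ z * (z.2.card : ℝ) = sz μ := by
    unfold sz
    rw [← push_sum Prod.snd σ (fun T => (T.card : ℝ)), ← hμ]
  rw [← hμ, ← hν]
  rw [g6, g7] at g5
  linarith

end Vale.Agent.P064
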